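import Mathlib

namespace Vale.Agent.H5.P063

/-- The set `E_{n,r}` of all `r`-element subsets of the vertex set `Fin n`. -/
def edges (n r : ℕ) : Finset (Finset (Fin n)) := Finset.powersetCard r Finset.univ

/-- `P` (a set of edge sets) is an `r`-uniform hypergraph property on the vertex set `Fin n`:
its members are simple `r`-uniform hypergraphs (subsets of `edges n r`), and it is invariant
under every permutation of the vertices. -/
structure IsProperty (n r : ℕ) (P : Set (Finset (Finset (Fin n)))) : Prop where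
  sub : ∀ G ∈ P, G ⊆ edges n r
  invariant : ∀ (σ : Equiv.Perm (Fin n)) (G : Finset (Finset (Fin n))),
    G ∈ P → G.image (fun e => e.image σ) ∈ P

/-- Adding edges preserves membership. -/
def IsIncreasing (n r : ℕ) (P : Set (Finset (Finset (Fin n)))) : Prop :=
  ∀ G ∈ P, ∀ G' : Finset (Finset (Fin n)), G ⊆ G' → G' ⊆ edges n r → G' ∈ P

/-- `P` is neither empty nor everything. -/
def IsNontrivial (n r : ℕ) (P : Set (Finset (Finset (Fin n)))) : Prop :=
  (∃ G, G ∈ P) ∧ ∃ G, G ⊆ edges n r ∧ G ∉ P

open Classical in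
/-- `mu n r p P`: the probability that the random `r`-uniform hypergraph on `Fin n`, in which
every edge is present independently with probability `p`, lies in `P`. -/
noncomputable def mu (n r : ℕ) (p : ℝ) (P : Set (Finset (Finset (Fin n)))) : ℝ :=
  ∑ G ∈ (edges n r).powerset.filter (fun G => G ∈ P),
    p ^ G.card * (1 - p) ^ ((edges n r).card - G.card)

/-- `p_a(P) = inf {p ∈ [0,1] : mu_p(P) ≥ a}`. -/
noncomputable def pcrit (n r : ℕ) (P : Set (Finset (Finset (Fin n)))) (a : ℝ) : ℝ :=
  sInf {p : ℝ | p ∈ Set.Icc (0 : ℝ) 1 ∧ a ≤ mu n r p P}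

/-- The threshold width `w_ε(P) = p_{1-ε}(P) - p_ε(P)`. -/
noncomputable def width (n r : ℕ) (P : Set (Finset (Finset (Fin n)))) (ε : ℝ) : ℝ :=
  pcrit n r P (1 - ε) - pcrit n r P ε

end Vale.Agent.H5.P063
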