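import Vale.Agent.H5.P063Proof

namespace Vale.Agent.H5.P063

open Finset

lemma mu_one (n r : ℕ) (P : Set (Finset (Finset (Fin n)))) (hE : edges n r ∈ P) :
    mu n r 1 P = 1 := by
  classical
  unfold mu
  rw [sum_eq_single (edges n r)]
  · simp
  · intro G hG hne
    simp only [mem_filter, mem_powerset] at hG
    have hlt : G.card < (edges n r).card :=
      card_lt_card (Finset.ssubset_iff_subset_ne.mpr ⟨hG.1, hne⟩)
    have : (edges n r).card - G.card ≠ 0 := by omega
    simp [this]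
  · intro h
    exfalso
    apply h
    simp [hE]

lemma width_ge (n r : ℕ) (P : Set (Finset (Finset (Fin n)))) (m : ℕ) (hmpos : 1 ≤ m)
    (hm : ∀ G ∈ P, ∃ F, F ⊆ G ∧ F.card ≤ m ∧ ∀ R, F ⊆ R → R ⊆ G → R ∈ P)
    (hE : edges n r ∈ P) {ε : ℝ} (h0 : 0 < ε) (h1 : ε < 1 / 2) (q : ℝ) (hq : 0 < q)
    (hlow : ∀ p : ℝ, 0 ≤ p → p ≤ 1 → ε ≤ mu n r p P → q ≤ p) :
    q * Real.log ((1 - ε) / ε) / m ≤ width n r P ε := by
  have hm0 : (0 : ℝ) < m := by exact_mod_cast hmpos
  have hε1 : 0 < 1 - ε := by linarith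
  set s : ℝ := (1 - ε) / ε with hs
  have hs1 : 1 < s := by
    rw [hs, lt_div_iff₀ h0]; linarith
  have hs0 : 0 < s := by linarith
  set t : ℝ := (s⁻¹) ^ ((1 : ℝ) / m) with ht
  have ht0 : 0 < t := Real.rpow_pos_of_pos (by positivity) _
  have ht1 : t ≤ 1 := by
    apply Real.rpow_le_one (by positivity)
    · exact inv_le_one_of_one_le₀ hs1.le
    · positivity
  have htm : t ^ m = s⁻¹ := by
    rw [ht, ← Real.rpow_natCast, ← Real.rpow_mul (by positivity)]
    rw [one_div, inv_mul_cancel₀ (by positivity), Real.rpow_one]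
  have hlogt : Real.log t⁻¹ = Real.log s / m := by
    rw [Real.log_inv, ht, Real.log_rpow (by positivity), Real.log_inv]
    ring
  have hone_a : (1 : ℝ) ∈ {p : ℝ | p ∈ Set.Icc (0 : ℝ) 1 ∧ ε ≤ mu n r p P} := by
    refine ⟨⟨zero_le_one, le_rfl⟩, ?_⟩
    rw [mu_one n r P hE]; linarith
  have hone_b : (1 : ℝ) ∈ {p : ℝ | p ∈ Set.Icc (0 : ℝ) 1 ∧ 1 - ε ≤ mu n r p P} := by
    refine ⟨⟨zero_le_one, le_rfl⟩, ?_⟩
    rw [mu_one n r P hE]; linarith
  have hbdd : BddBelow {p : ℝ | p ∈ Set.Icc (0 : ℝ) 1 ∧ ε ≤ mu n r p P} :=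
    ⟨0, fun p hp => hp.1.1⟩
  have hqa : q ≤ pcrit n r P ε := by
    apply le_csInf ⟨1, hone_a⟩
    intro p hp
    exact hlow p hp.1.1 hp.1.2 hp.2
  have hab : pcrit n r P ε * t⁻¹ ≤ pcrit n r P (1 - ε) := by
    apply le_csInf ⟨1, hone_b⟩
    intro p hp
    have hp0 := hp.1.1
    have hp1 := hp.1.2
    have h2 := mu_thin n r P m hm hp0 hp1 ht0.le ht1
    rw [htm] at h2
    have h3 : ε ≤ mu n r (t * p) P := by
      refine le_trans ?_ h2
      calc ε = s⁻¹ * (1 - ε) := by
            rw [hs]; field_simp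
        _ ≤ s⁻¹ * mu n r p P := by
            apply mul_le_mul_of_nonneg_left hp.2 (by positivity)
    have h4 : pcrit n r P ε ≤ t * p := by
      apply csInf_le hbdd
      refine ⟨⟨by positivity, ?_⟩, h3⟩
      calc t * p ≤ 1 * 1 := by
            apply mul_le_mul ht1 hp1 hp0 zero_le_one
        _ = 1 := by norm_num
    rw [← div_eq_mul_inv, div_le_iff₀ ht0]
    linarith
  have hlogle : Real.log t⁻¹ ≤ t⁻¹ - 1 := Real.log_le_sub_one_of_pos (by positivity)
  have hlogs : 0 < Real.log s := Real.log_pos hs1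
  unfold width
  calc q * Real.log s / m = q * Real.log t⁻¹ := by rw [hlogt]; ring
    _ ≤ q * (t⁻¹ - 1) := mul_le_mul_of_nonneg_left hlogle hq.le
    _ ≤ pcrit n r P ε * (t⁻¹ - 1) := by
        apply mul_le_mul_of_nonneg_right hqa
        have : 0 ≤ Real.log t⁻¹ := by rw [hlogt]; positivity
        linarith
    _ ≤ pcrit n r P (1 - ε) - pcrit n r P ε := by linarith

lemma pow_le_const_choose (k r : ℕ) (hr : 1 ≤ r) (hk : r ≤ k) :
    k ^ r ≤ r ^ r * r.factorial * k.choose r := by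
  have h1 : k ≤ r * (k + 1 - r) := by
    obtain ⟨j, rfl⟩ := Nat.exists_eq_add_of_le hk
    have : r + j + 1 - r = j + 1 := by omega
    rw [this]
    nlinarith
  have h2 : (k + 1 - r) ^ r ≤ r.factorial * k.choose r := by
    have := Nat.pow_sub_le_descFactorial k r
    rw [Nat.descFactorial_eq_factorial_mul_choose] at this
    exact this
  calc k ^ r ≤ (r * (k + 1 - r)) ^ r := Nat.pow_le_pow_left h1 r
    _ = r ^ r * (k + 1 - r) ^ r := by rw [mul_pow]
    _ ≤ r ^ r * (r.factorial * k.choose r) := Nat.mul_le_mul_left _ h2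
    _ = _ := by ring

theorem main (r : ℕ) (hr : 2 ≤ r) (ε : ℝ) (h0 : 0 < ε) (h1 : ε < 1 / 2) :
    ∃ c : ℝ, 0 < c ∧ ∀ n : ℕ, r ≤ n → ∃ P : Set (Finset (Finset (Fin n))),
      IsProperty n r P ∧ IsIncreasing n r P ∧ IsNontrivial n r P ∧
      c * (Real.log n) ^ (-((r : ℝ) / ((r : ℝ) - 1))) ≤ width n r P ε := by
  set A : ℝ := (r : ℝ) ^ r * r.factorial with hA
  set q : ℝ := ε * Real.exp (-A) with hqdef
  have hq : 0 < q := by positivity
  have hε1 : 0 < 1 - ε := by linarith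
  have hs1 : 1 < (1 - ε) / ε := by
    rw [lt_div_iff₀ h0]; linarith
  have hlogs : 0 < Real.log ((1 - ε) / ε) := Real.log_pos hs1
  have hr0 : (0 : ℝ) < r := by positivity
  have hr1 : (0 : ℝ) < (r : ℝ) - 1 := by
    have : (2 : ℝ) ≤ r := by exact_mod_cast hr
    linarith
  refine ⟨q * Real.log ((1 - ε) / ε) / (2 * r) ^ r, by positivity, ?_⟩
  intro n hn
  have hn2 : (2 : ℝ) ≤ n := by exact_mod_cast hr.trans hn
  have hn0 : (0 : ℝ) < n := by linarith
  have hlog2 : (1 : ℝ) / 2 ≤ Real.log 2 := by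
    have := Real.log_two_gt_d9; linarith
  have hlog2' : Real.log 2 ≤ 1 := by
    have := Real.log_two_lt_d9; linarith
  have hL : Real.log 2 ≤ Real.log n := Real.log_le_log (by norm_num) hn2
  have hL0 : 0 < Real.log n := by linarith
  set x : ℝ := (Real.log n) ^ ((1 : ℝ) / ((r : ℝ) - 1)) with hx
  have hexp0 : 0 ≤ (1 : ℝ) / ((r : ℝ) - 1) := by positivity
  have hexp1 : (1 : ℝ) / ((r : ℝ) - 1) ≤ 1 := by
    rw [div_le_one hr1]
    have : (2 : ℝ) ≤ r := by exact_mod_cast hr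
    linarith
  have hx0 : 0 < x := Real.rpow_pos_of_pos hL0 _
  have hxhalf : 1 / 2 ≤ x := by
    calc (1 : ℝ) / 2 ≤ Real.log 2 := hlog2
      _ = (Real.log 2) ^ (1 : ℝ) := (Real.rpow_one _).symm
      _ ≤ (Real.log 2) ^ ((1 : ℝ) / ((r : ℝ) - 1)) :=
          Real.rpow_le_rpow_of_exponent_ge (by linarith) hlog2' hexp1
      _ ≤ x := Real.rpow_le_rpow (by linarith) hL hexp0
  have hxr1 : x ^ (r - 1) = Real.log n := by
    rw [hx, ← Real.rpow_natCast, ← Real.rpow_mul hL0.le]
    rw [Nat.cast_sub (by omega), Nat.cast_one, one_div, inv_mul_cancel₀ hr1.ne', Real.rpow_one]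
  have hxr : x ^ r = (Real.log n) ^ ((r : ℝ) / ((r : ℝ) - 1)) := by
    rw [hx, ← Real.rpow_natCast, ← Real.rpow_mul hL0.le]
    congr 1
    ring
  have hxn : x ≤ n := by
    rcases le_total (Real.log n) 1 with h | h
    · calc x ≤ 1 := Real.rpow_le_one hL0.le h hexp0
        _ ≤ n := by linarith
    · calc x ≤ (Real.log n) ^ (1 : ℝ) := Real.rpow_le_rpow_of_exponent_le h hexp1
        _ = Real.log n := Real.rpow_one _
        _ ≤ n - 1 := Real.log_le_sub_one_of_pos hn0
        _ ≤ n := by linarith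
  set k : ℕ := max r ⌈x⌉₊ with hk
  have hrk : r ≤ k := le_max_left _ _
  have hkn : k ≤ n := by
    apply max_le hn
    exact Nat.ceil_le.mpr hxn
  have hxk : x ≤ k := le_trans (Nat.le_ceil x) (by exact_mod_cast le_max_right _ _)
  have hkx : (k : ℝ) ≤ 2 * r * x := by
    have hr2 : (2 : ℝ) ≤ r := by exact_mod_cast hr
    rw [hk]
    rcases le_total r ⌈x⌉₊ with h | h
    · rw [max_eq_right h]
      have := (Nat.ceil_lt_add_one hx0.le).le
      nlinarith
    · rw [max_eq_left h]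
      nlinarith
  set M : ℕ := k.choose r with hM
  have hMpos : 1 ≤ M := Nat.choose_pos hrk
  have hM0 : (0 : ℝ) < M := by exact_mod_cast hMpos
  -- bound `k log n ≤ A M`
  have hkey : (k : ℝ) * Real.log n ≤ A * M := by
    have h2 : Real.log n ≤ (k : ℝ) ^ (r - 1) := by
      rw [← hxr1]
      exact pow_le_pow_left₀ hx0.le hxk _
    calc (k : ℝ) * Real.log n ≤ k * (k : ℝ) ^ (r - 1) := by
          apply mul_le_mul_of_nonneg_left h2; positivity
      _ = (k : ℝ) ^ r := by
          rw [← pow_succ']; congr 1; omega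
      _ ≤ A * M := by
          have := pow_le_const_choose k r (by omega) hrk
          rw [hA]
          exact_mod_cast this
  refine ⟨clq n r k, clq_isProperty n r k, clq_increasing n r k,
    clq_nontrivial n r k hrk hkn, ?_⟩
  have hE : edges n r ∈ clq n r k := by
    obtain ⟨S, hS⟩ := exists_subset_card_eq (s := (univ : Finset (Fin n))) (n := k)
      (by simpa using hkn)
    exact ⟨subset_rfl, S, hS.2, powersetCard_mono (subset_univ _)⟩
  have hw := width_ge n r (clq n r k) M hMpos ?_ hE h0 h1 q hq ?_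
  · refine le_trans ?_ hw
    rw [Real.rpow_neg hL0.le, ← hxr]
    have hMle : (M : ℝ) ≤ (2 * r) ^ r * x ^ r := by
      calc (M : ℝ) ≤ (k : ℝ) ^ r := by exact_mod_cast Nat.choose_le_pow k r
        _ ≤ (2 * r * x) ^ r := pow_le_pow_left₀ (by positivity) hkx _
        _ = _ := by rw [mul_pow]
    rw [div_mul_eq_mul_div, div_le_div_iff₀ (by positivity) hM0]
    have hxr0 : 0 < x ^ r := by positivity
    have : q * Real.log ((1 - ε) / ε) * (x ^ r)⁻¹ * M ≤
        q * Real.log ((1 - ε) / ε) * (x ^ r)⁻¹ * ((2 * r) ^ r * x ^ r) := by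
      apply mul_le_mul_of_nonneg_left hMle; positivity
    refine this.trans (le_of_eq ?_)
    field_simp
  · rintro G ⟨hG, S, hS, hSG⟩
    refine ⟨powersetCard r S, hSG, ?_, ?_⟩
    · rw [card_powersetCard, hS]
    · intro R hSR hRG
      exact ⟨hRG.trans hG, S, hS, hSR⟩
  · intro p hp0 hp1 hmu
    by_contra hlt
    push Not at hlt
    have h2 := hmu.trans (mu_clq_le n r k hp0 hp1)
    have h3 : p ^ M ≤ q ^ M := pow_le_pow_left₀ hp0 hlt.le _
    have h3' : p ^ M < q ^ M := pow_lt_pow_left₀ hlt hp0 (by omega)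
    have h4 : (n.choose k : ℝ) ≤ (n : ℝ) ^ k := by exact_mod_cast Nat.choose_le_pow n k
    have h5 : (n : ℝ) ^ k = Real.exp (k * Real.log n) := by
      rw [mul_comm, Real.exp_mul, Real.exp_log hn0, Real.rpow_natCast]
    have h6 : q ^ M ≤ ε * Real.exp (-(A * M)) := by
      rw [hqdef, mul_pow, ← Real.exp_nat_mul]
      have h7 : ε ^ M ≤ ε := by
        calc ε ^ M ≤ ε ^ 1 := pow_le_pow_of_le_one h0.le (by linarith) hMpos
          _ = ε := pow_one _
      have h8 : Real.exp (M * -A) = Real.exp (-(A * M)) := by congr 1; ring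
      rw [h8]
      exact mul_le_mul_of_nonneg_right h7 (Real.exp_pos _).le
    have hnk0 : (0 : ℝ) < (n : ℝ) ^ k := by positivity
    have hlast : (n.choose k : ℝ) * p ^ k.choose r < ε := by
      calc (n.choose k : ℝ) * p ^ k.choose r ≤ (n : ℝ) ^ k * p ^ M := by
            apply mul_le_mul_of_nonneg_right h4; positivity
        _ < (n : ℝ) ^ k * q ^ M := mul_lt_mul_of_pos_left h3' hnk0
        _ ≤ (n : ℝ) ^ k * (ε * Real.exp (-(A * M))) := mul_le_mul_of_nonneg_left h6 hnk0.le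
        _ = ε * Real.exp (k * Real.log n - A * M) := by
            rw [h5, sub_eq_add_neg, Real.exp_add]; ring
        _ ≤ ε * 1 := by
            apply mul_le_mul_of_nonneg_left _ h0.le
            rw [Real.exp_le_one_iff]; linarith
        _ = ε := mul_one _
    linarith

end Vale.Agent.H5.P063
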