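import Vale.Agent.H5.P063Defs

namespace Vale.Agent.H5.P063

open Finset

/-- clique property -/
def clq (n r k : ℕ) : Set (Finset (Finset (Fin n))) :=
  {G | G ⊆ edges n r ∧ ∃ S : Finset (Fin n), S.card = k ∧ powersetCard r S ⊆ G}

lemma clq_isProperty (n r k : ℕ) : IsProperty n r (clq n r k) := by
  constructor
  · intro G hG; exact hG.1
  · rintro σ G ⟨hG, S, hS, hSG⟩
    refine ⟨?_, S.image σ, ?_, ?_⟩
    · intro e he
      rw [mem_image] at he
      obtain ⟨e', he', rfl⟩ := he
      have := hG he'
      simp only [edges, mem_powersetCard, subset_univ, true_and] at this ⊢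
      rw [card_image_of_injective _ σ.injective, this]
    · rw [card_image_of_injective _ σ.injective, hS]
    · intro e he
      rw [mem_powersetCard] at he
      rw [mem_image]
      refine ⟨e.image σ.symm, hSG ?_, ?_⟩
      · rw [mem_powersetCard]
        constructor
        · intro x hx
          rw [mem_image] at hx
          obtain ⟨y, hy, rfl⟩ := hx
          have := he.1 hy
          rw [mem_image] at this
          obtain ⟨z, hz, rfl⟩ := this
          simpa using hz
        · rw [card_image_of_injective _ σ.symm.injective, he.2]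
      · rw [image_image]
        simp

lemma clq_increasing (n r k : ℕ) : IsIncreasing n r (clq n r k) := by
  rintro G ⟨_, S, hS, hSG⟩ G' hGG' hG'
  exact ⟨hG', S, hS, hSG.trans hGG'⟩

lemma clq_nontrivial (n r k : ℕ) (hk : r ≤ k) (hkn : k ≤ n) :
    IsNontrivial n r (clq n r k) := by
  constructor
  · obtain ⟨S, hS⟩ := exists_subset_card_eq (s := (univ : Finset (Fin n))) (n := k) (by simpa using hkn)
    refine ⟨edges n r, subset_rfl, S, hS.2, ?_⟩
    exact powersetCard_mono (subset_univ _)
  · refine ⟨∅, empty_subset _, ?_⟩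
    rintro ⟨_, S, hS, hSG⟩
    have : (powersetCard r S).card = 0 := by
      rw [subset_empty] at hSG
      simp [hSG]
    rw [card_powersetCard, hS] at this
    have h2 := Nat.choose_pos hk
    omega

/-- weights of supersets of a fixed set -/
lemma sum_superset {α : Type*} [DecidableEq α] (E F : Finset α) (hF : F ⊆ E) (a b : ℝ) :
    ∑ G ∈ E.powerset.filter (fun G => F ⊆ G), a ^ (G.card - F.card) * b ^ (E.card - G.card)
      = (a + b) ^ (E.card - F.card) := by
  have key := sum_pow_mul_eq_add_pow a b (E \ F)
  rw [card_sdiff_of_subset hF] at key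
  rw [← key]
  symm
  refine sum_bij' (fun G _ => F ∪ G) (fun G _ => G \ F) ?_ ?_ ?_ ?_ ?_
  · intro G hG
    rw [mem_powerset] at hG
    simp only [mem_filter, mem_powerset]
    refine ⟨union_subset hF (hG.trans sdiff_subset), subset_union_left⟩
  · intro G hG
    simp only [mem_filter, mem_powerset] at hG
    rw [mem_powerset]
    exact sdiff_subset_sdiff hG.1 subset_rfl
  · intro G hG
    rw [mem_powerset] at hG
    ext x
    simp only [mem_sdiff, mem_union]
    constructor
    · rintro ⟨h1 | h1, h2⟩
      · exact absurd h1 h2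
      · exact h1
    · intro h
      have := hG h
      rw [mem_sdiff] at this
      exact ⟨Or.inr h, this.2⟩
  · intro G hG
    simp only [mem_filter, mem_powerset] at hG
    exact union_sdiff_of_subset hG.2
  · intro G hG
    rw [mem_powerset] at hG
    have hdisj : Disjoint F G := by
      rw [disjoint_left]
      intro x hx hx'
      have := hG hx'
      rw [mem_sdiff] at this
      exact this.2 hx
    rw [card_union_of_disjoint hdisj]
    have h1 : F.card + G.card - F.card = G.card := by omega
    have h2 : E.card - (F.card + G.card) = E.card - F.card - G.card := by omega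
    rw [h1, h2]

/-- probability that `G ⊇ F` -/
lemma sum_superset_prob {α : Type*} [DecidableEq α] (E F : Finset α) (hF : F ⊆ E) (p : ℝ) :
    ∑ G ∈ E.powerset.filter (fun G => F ⊆ G), p ^ G.card * (1 - p) ^ (E.card - G.card)
      = p ^ F.card := by
  have key := sum_superset E F hF p (1 - p)
  have h1 : (p + (1 - p)) ^ (E.card - F.card) = 1 := by
    rw [show p + (1 - p) = 1 by ring, one_pow]
  rw [h1] at key
  calc ∑ G ∈ E.powerset.filter (fun G => F ⊆ G), p ^ G.card * (1 - p) ^ (E.card - G.card)
      = ∑ G ∈ E.powerset.filter (fun G => F ⊆ G),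
        p ^ F.card * (p ^ (G.card - F.card) * (1 - p) ^ (E.card - G.card)) := by
        refine sum_congr rfl ?_
        intro G hG
        simp only [mem_filter, mem_powerset] at hG
        have := card_le_card hG.2
        rw [← mul_assoc, ← pow_add]
        congr 2
        omega
    _ = p ^ F.card := by rw [← mul_sum, key, mul_one]

lemma sum_biUnion_le_sum' {ι α : Type*} [DecidableEq α] (s : Finset ι) (t : ι → Finset α)
    (f : α → ℝ) (hf : ∀ x, 0 ≤ f x) :
    ∑ x ∈ s.biUnion t, f x ≤ ∑ i ∈ s, ∑ x ∈ t i, f x := by
  classical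
  induction s using Finset.induction_on with
  | empty => simp
  | insert a s ha ih =>
    rw [biUnion_insert, sum_insert ha]
    calc ∑ x ∈ t a ∪ s.biUnion t, f x
        ≤ ∑ x ∈ t a ∪ s.biUnion t, f x + ∑ x ∈ t a ∩ s.biUnion t, f x :=
          le_add_of_nonneg_right (sum_nonneg (fun x _ => hf x))
      _ = ∑ x ∈ t a, f x + ∑ x ∈ s.biUnion t, f x := sum_union_inter
      _ ≤ _ := by linarith

lemma mu_term_nonneg {p : ℝ} (h0 : 0 ≤ p) (h1 : p ≤ 1) (a b : ℕ) :
    0 ≤ p ^ a * (1 - p) ^ b := by
  have : 0 ≤ 1 - p := by linarith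
  positivity

open Classical in
/-- Markov bound for the clique property. -/
lemma mu_clq_le (n r k : ℕ) {p : ℝ} (h0 : 0 ≤ p) (h1 : p ≤ 1) :
    mu n r p (clq n r k) ≤ (n.choose k : ℝ) * p ^ (k.choose r) := by
  have hsub : (edges n r).powerset.filter (fun G => G ∈ clq n r k) ⊆
      (powersetCard k (univ : Finset (Fin n))).biUnion
        (fun S => (edges n r).powerset.filter (fun G => powersetCard r S ⊆ G)) := by
    intro G hG
    simp only [mem_filter, mem_powerset] at hG
    obtain ⟨hG1, _, S, hS, hSG⟩ := hG
    simp only [mem_biUnion, mem_filter, mem_powerset, mem_powersetCard, subset_univ, true_and]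
    exact ⟨S, hS, hG1, hSG⟩
  calc mu n r p (clq n r k)
      ≤ ∑ G ∈ (powersetCard k (univ : Finset (Fin n))).biUnion
        (fun S => (edges n r).powerset.filter (fun G => powersetCard r S ⊆ G)),
          p ^ G.card * (1 - p) ^ ((edges n r).card - G.card) := by
        unfold mu
        exact sum_le_sum_of_subset_of_nonneg hsub (fun _ _ _ => mu_term_nonneg h0 h1 _ _)
    _ ≤ ∑ S ∈ powersetCard k (univ : Finset (Fin n)),
        ∑ G ∈ (edges n r).powerset.filter (fun G => powersetCard r S ⊆ G),
          p ^ G.card * (1 - p) ^ ((edges n r).card - G.card) :=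
        sum_biUnion_le_sum' _ _ _ (fun _ => mu_term_nonneg h0 h1 _ _)
    _ = ∑ S ∈ powersetCard k (univ : Finset (Fin n)), p ^ (k.choose r) := by
        refine sum_congr rfl ?_
        intro S hS
        rw [mem_powersetCard] at hS
        rw [sum_superset_prob (edges n r) (powersetCard r S) (powersetCard_mono (subset_univ _)) p,
          card_powersetCard, hS.2]
    _ = (n.choose k : ℝ) * p ^ (k.choose r) := by
        rw [sum_const, card_powersetCard, card_univ, Fintype.card_fin, nsmul_eq_mul]

/-- the coupling identity: thinning a `p`-random set with retention probability `t` gives a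
`t p`-random set. -/
lemma thin_identity {α : Type*} [DecidableEq α] (E F : Finset α) (hF : F ⊆ E) (p t : ℝ) :
    (t * p) ^ F.card * (1 - t * p) ^ (E.card - F.card) =
      ∑ G ∈ E.powerset.filter (fun G => F ⊆ G),
        (p ^ G.card * (1 - p) ^ (E.card - G.card)) *
          (t ^ F.card * (1 - t) ^ (G.card - F.card)) := by
  have key := sum_superset E F hF (p * (1 - t)) (1 - p)
  have h1 : p * (1 - t) + (1 - p) = 1 - t * p := by ring
  rw [h1] at key
  rw [← key, mul_sum]
  refine sum_congr rfl ?_
  intro G hG
  simp only [mem_filter, mem_powerset] at hG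
  have hc := card_le_card hG.2
  have h2 : p ^ G.card = p ^ F.card * p ^ (G.card - F.card) := by
    rw [← pow_add]; congr 1; omega
  rw [h2, mul_pow, mul_pow]
  ring

open Classical in
/-- thinning inequality -/
lemma mu_thin (n r : ℕ) (P : Set (Finset (Finset (Fin n)))) (m : ℕ)
    (hm : ∀ G ∈ P, ∃ F, F ⊆ G ∧ F.card ≤ m ∧ ∀ R, F ⊆ R → R ⊆ G → R ∈ P)
    {p t : ℝ} (h0 : 0 ≤ p) (h1 : p ≤ 1) (ht0 : 0 ≤ t) (ht1 : t ≤ 1) :
    t ^ m * mu n r p P ≤ mu n r (t * p) P := by
  -- expand the right-hand side
  have hR : mu n r (t * p) P =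
      ∑ G ∈ (edges n r).powerset, (p ^ G.card * (1 - p) ^ ((edges n r).card - G.card)) *
        ∑ R ∈ G.powerset.filter (fun R => R ∈ P), t ^ R.card * (1 - t) ^ (G.card - R.card) := by
    unfold mu
    calc ∑ R ∈ (edges n r).powerset.filter (fun R => R ∈ P),
          (t * p) ^ R.card * (1 - t * p) ^ ((edges n r).card - R.card)
        = ∑ R ∈ (edges n r).powerset.filter (fun R => R ∈ P),
          ∑ G ∈ (edges n r).powerset.filter (fun G => R ⊆ G),
          (p ^ G.card * (1 - p) ^ ((edges n r).card - G.card)) *
            (t ^ R.card * (1 - t) ^ (G.card - R.card)) := by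
          refine sum_congr rfl ?_
          intro R hR
          simp only [mem_filter, mem_powerset] at hR
          exact thin_identity _ _ hR.1 p t
      _ = ∑ G ∈ (edges n r).powerset, ∑ R ∈ G.powerset.filter (fun R => R ∈ P),
          (p ^ G.card * (1 - p) ^ ((edges n r).card - G.card)) *
            (t ^ R.card * (1 - t) ^ (G.card - R.card)) := by
          refine sum_comm' ?_
          intro R G
          simp only [mem_filter, mem_powerset]
          constructor
          · rintro ⟨⟨h1, h2⟩, h3, h4⟩
            exact ⟨⟨h4, h2⟩, h3⟩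
          · rintro ⟨⟨h1, h2⟩, h3⟩
            exact ⟨⟨h1.trans h3, h2⟩, h3, h1⟩
      _ = _ := by
          refine sum_congr rfl ?_
          intro G _
          rw [mul_sum]
  rw [hR]
  unfold mu
  rw [mul_sum, sum_filter]
  refine sum_le_sum ?_
  intro G hG
  rw [mem_powerset] at hG
  have hw := mu_term_nonneg h0 h1 G.card ((edges n r).card - G.card)
  have hin : ∀ R : Finset (Finset (Fin n)), 0 ≤ t ^ R.card * (1 - t) ^ (G.card - R.card) :=
    fun R => mu_term_nonneg ht0 ht1 _ _
  split_ifs with hGP
  · obtain ⟨F, hFG, hFm, hFR⟩ := hm G hGP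
    have h2 : t ^ m ≤ ∑ R ∈ G.powerset.filter (fun R => R ∈ P),
        t ^ R.card * (1 - t) ^ (G.card - R.card) := by
      calc t ^ m ≤ t ^ F.card := pow_le_pow_of_le_one ht0 ht1 hFm
        _ = ∑ R ∈ G.powerset.filter (fun R => F ⊆ R), t ^ R.card * (1 - t) ^ (G.card - R.card) :=
            (sum_superset_prob G F hFG t).symm
        _ ≤ _ := by
            refine sum_le_sum_of_subset_of_nonneg ?_ (fun R _ _ => hin R)
            intro R hR
            simp only [mem_filter, mem_powerset] at hR ⊢
            exact ⟨hR.1, hFR R hR.2 hR.1⟩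
    calc t ^ m * (p ^ G.card * (1 - p) ^ ((edges n r).card - G.card))
        = (p ^ G.card * (1 - p) ^ ((edges n r).card - G.card)) * t ^ m := by ring
      _ ≤ _ := mul_le_mul_of_nonneg_left h2 hw
  · exact mul_nonneg hw (sum_nonneg (fun R _ => hin R))

end Vale.Agent.H5.P063
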