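namespace Vale.Agent.H5.Snaky

/-- width of the coding window -/
def W : Nat := 19

/-- bits used by one mask -/
def NBits : Nat := 361

def sub (a b : Nat) : Bool := Nat.beq (a ||| b) b

/-- binary tree of packed data -/
inductive T where
  | leaf (p r : Nat) : T
  | node (l r : T) : T

def T.getP : T → Nat → Nat
  | .leaf p _, _ => p
  | .node l r, k => bif Nat.beq (k % 2) 0 then l.getP (k / 2) else r.getP (k / 2)

def T.getR : T → Nat → Nat
  | .leaf _ r, _ => r
  | .node l r, k => bif Nat.beq (k % 2) 0 then l.getR (k / 2) else r.getR (k / 2)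

def patC (t : T) (j : Nat) : Nat := (t.getP (j / 64) >>> (722 * (j % 64))) % 2 ^ 361
def patN (t : T) (j : Nat) : Nat := (t.getP (j / 64) >>> (722 * (j % 64) + 361)) % 2 ^ 361

/-- checks of one reference `v = jj + 2^20 * m` of pattern number `j` with masks `C`, `N` -/
def refOK (t : T) (j C N v : Nat) : Bool :=
  Nat.blt (v % 2 ^ 20) j &&
  sub (patC t (v % 2 ^ 20)) (C ||| (1 <<< (v / 2 ^ 20))) &&
  sub (patN t (v % 2 ^ 20) ||| (1 <<< (v / 2 ^ 20))) (N ||| C)

def refZ (t : T) (v : Nat) : Nat := patN t (v % 2 ^ 20) ||| (1 <<< (v / 2 ^ 20))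

/-- loop over the references in the slots `k, k+1, ..., k+cnt-1` of the packed number `R` -/
def loopRefs (t : T) (j C N R : Nat) : Nat → Nat → Nat → Bool
  | 0, _, X => sub X C
  | cnt + 1, k, X =>
    refOK t j C N ((R >>> (1024 + 32 * k)) % 2 ^ 32) &&
      loopRefs t j C N R cnt (k + 1) (X &&& refZ t ((R >>> (1024 + 32 * k)) % 2 ^ 32))

/-- the six cells of the `o`-th oriented copy of Snaky, as natural offsets -/
def offs : Nat → List (Nat × Nat)
  | 0 => [(0, 0), (1, 0), (2, 0), (3, 0), (3, 1), (4, 1)]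
  | 1 => [(4, 0), (3, 0), (2, 0), (1, 0), (1, 1), (0, 1)]
  | 2 => [(0, 1), (1, 1), (2, 1), (3, 1), (3, 0), (4, 0)]
  | 3 => [(4, 1), (3, 1), (2, 1), (1, 1), (1, 0), (0, 0)]
  | 4 => [(0, 0), (0, 1), (0, 2), (0, 3), (1, 3), (1, 4)]
  | 5 => [(0, 4), (0, 3), (0, 2), (0, 1), (1, 1), (1, 0)]
  | 6 => [(1, 0), (1, 1), (1, 2), (1, 3), (0, 3), (0, 4)]
  | _ => [(1, 4), (1, 3), (1, 2), (1, 1), (0, 1), (0, 0)]

/-- base pattern: `C` contains the `o`-th oriented copy shifted by `(x, y)` -/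
def baseOK (C o x y : Nat) : Bool :=
  (offs o).all (fun p => Nat.blt (y + p.2) W && Nat.testBit C ((x + p.1) * W + (y + p.2)))

/-- check of pattern number `j` -/
def checkPat (t : T) (j : Nat) : Bool :=
  let R := t.getR (j / 64)
  let h := (R >>> (16 * (j % 64))) % 2 ^ 16
  let cnt := h % 2 ^ 5
  let k := h / 2 ^ 5
  let v := (R >>> (1024 + 32 * k)) % 2 ^ 32
  match cnt with
  | 0 => baseOK (patC t j) (v % 2 ^ 4) ((v / 2 ^ 4) % 2 ^ 8) (v / 2 ^ 12)
  | c + 1 => loopRefs t j (patC t j) (patN t j) R (c + 1) k (refZ t v)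

/-- check the patterns `a, a+1, ..., a+len-1` -/
def checkRange (t : T) : Nat → Nat → Bool
  | _, 0 => true
  | a, len + 1 => checkPat t (a + len) && checkRange t a len

end Vale.Agent.H5.Snaky
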