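import Vale.Agent.H5.SnakyPat
import Vale.Agent.H5.SnakyComp

namespace Vale.Agent.H5.Snaky

/-- the cells coded by a mask -/
def cellsOf (a : ℕ) : Set Cell :=
  {c | ∃ x y : ℕ, y < W ∧ c = ((x : ℤ), (y : ℤ)) ∧ a.testBit (x * W + y) = true}

lemma mem_cellsOf (a x y : ℕ) (hy : y < W) :
    (((x : ℤ), (y : ℤ)) : Cell) ∈ cellsOf a ↔ a.testBit (x * W + y) = true := by
  constructor
  · rintro ⟨x', y', _, h, ht⟩
    rw [Prod.mk.injEq] at h
    obtain ⟨h1, h2⟩ := h
    have h1' : x = x' := by exact_mod_cast h1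
    have h2' : y = y' := by exact_mod_cast h2
    subst h1' h2'
    exact ht
  · intro h
    exact ⟨x, y, hy, rfl, h⟩

lemma sub_testBit {a b : ℕ} (h : sub a b = true) (i : ℕ) (hi : a.testBit i = true) :
    b.testBit i = true := by
  have h' : a ||| b = b := Nat.eq_of_beq_eq_true h
  rw [← h', Nat.testBit_or, hi, Bool.true_or]

lemma sub_cells {a b : ℕ} (h : sub a b = true) (c : Cell) (hc : c ∈ cellsOf a) :
    c ∈ cellsOf b := by
  obtain ⟨x, y, hy, rfl, ht⟩ := hc
  exact ⟨x, y, hy, rfl, sub_testBit h _ ht⟩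

lemma cellsOf_or (a b : ℕ) (c : Cell) : c ∈ cellsOf (a ||| b) ↔ c ∈ cellsOf a ∨ c ∈ cellsOf b := by
  constructor
  · rintro ⟨x, y, hy, rfl, ht⟩
    rw [Nat.testBit_or, Bool.or_eq_true] at ht
    rcases ht with h | h
    · exact Or.inl ⟨x, y, hy, rfl, h⟩
    · exact Or.inr ⟨x, y, hy, rfl, h⟩
  · rintro (⟨x, y, hy, rfl, ht⟩ | ⟨x, y, hy, rfl, ht⟩)
    · exact ⟨x, y, hy, rfl, by rw [Nat.testBit_or, ht, Bool.true_or]⟩
    · exact ⟨x, y, hy, rfl, by rw [Nat.testBit_or, ht, Bool.or_true]⟩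

lemma cellsOf_and (a b : ℕ) (c : Cell) (h1 : c ∈ cellsOf a) (h2 : c ∈ cellsOf b) :
    c ∈ cellsOf (a &&& b) := by
  obtain ⟨x, y, hy, rfl, ht⟩ := h1
  rw [mem_cellsOf _ _ _ hy] at h2
  exact ⟨x, y, hy, rfl, by rw [Nat.testBit_and, ht, h2]; rfl⟩

lemma W_pos : 0 < W := by decide

/-- the cell with index `m` -/
def cellAt (m : ℕ) : Cell := (((m / W : ℕ) : ℤ), ((m % W : ℕ) : ℤ))

lemma cellsOf_bit (m : ℕ) (c : Cell) : c ∈ cellsOf (1 <<< m) ↔ c = cellAt m := by
  constructor
  · rintro ⟨x, y, hy, rfl, ht⟩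
    rw [Nat.one_shiftLeft, Nat.testBit_two_pow, decide_eq_true_eq] at ht
    subst ht
    unfold cellAt
    have h1 : (x * W + y) / W = x := by
      rw [Nat.mul_comm, Nat.mul_add_div W_pos, Nat.div_eq_of_lt hy, Nat.add_zero]
    have h2 : (x * W + y) % W = y := by
      rw [Nat.mul_comm, Nat.mul_add_mod, Nat.mod_eq_of_lt hy]
    rw [h1, h2]
  · rintro rfl
    refine ⟨m / W, m % W, Nat.mod_lt _ W_pos, rfl, ?_⟩
    rw [Nat.one_shiftLeft, Nat.testBit_two_pow, decide_eq_true_eq, Nat.mul_comm]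
    exact (Nat.div_add_mod m W).symm

/-! ### soundness -/

def Valid (t : T) (j : ℕ) : Prop := PB (cellsOf (patC t j)) (cellsOf (patN t j))

lemma offs_copy (o : ℕ) : IsCopy ((offs o).map
    (fun p => (((p.1 : ℕ) : ℤ), ((p.2 : ℕ) : ℤ)) : ℕ × ℕ → Cell)).toFinset := by
  unfold IsCopy
  match o with
  | 0 => exact ⟨1, 1, false, (0, 0), Or.inl rfl, Or.inl rfl, by decide⟩
  | 1 => exact ⟨-1, 1, false, (4, 0), Or.inr rfl, Or.inl rfl, by decide⟩
  | 2 => exact ⟨1, -1, false, (0, 1), Or.inl rfl, Or.inr rfl, by decide⟩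
  | 3 => exact ⟨-1, -1, false, (4, 1), Or.inr rfl, Or.inr rfl, by decide⟩
  | 4 => exact ⟨1, 1, true, (0, 0), Or.inl rfl, Or.inl rfl, by decide⟩
  | 5 => exact ⟨1, -1, true, (0, 4), Or.inl rfl, Or.inr rfl, by decide⟩
  | 6 => exact ⟨-1, 1, true, (1, 0), Or.inr rfl, Or.inl rfl, by decide⟩
  | (n + 7) => exact ⟨-1, -1, true, (1, 4), Or.inr rfl, Or.inr rfl, by simp only [offs]; decide⟩

lemma IsCopy_translate (A : Finset Cell) (hA : IsCopy A) (s : Cell) :
    IsCopy (A.image (fun c => s + c)) := by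
  obtain ⟨a, b, sw, t, ha, hb, rfl⟩ := hA
  refine ⟨a, b, sw, s + t, ha, hb, ?_⟩
  rw [Finset.image_image]
  apply Finset.image_congr
  intro c _
  simp only [Function.comp]
  rw [add_assoc]

lemma baseOK_sound (C o x y : ℕ) (h : baseOK C o x y = true) (N : Set Cell) :
    PB (cellsOf C) N := by
  apply PB_base _ _ _ (IsCopy_translate _ (offs_copy o) ((x : ℤ), (y : ℤ)))
  intro c hc
  rw [Finset.mem_image] at hc
  obtain ⟨c', hc', rfl⟩ := hc
  rw [List.mem_toFinset, List.mem_map] at hc'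
  obtain ⟨p, hp, rfl⟩ := hc'
  unfold baseOK at h
  rw [List.all_eq_true] at h
  have hp' := h p hp
  rw [Bool.and_eq_true] at hp'
  obtain ⟨h1, h2⟩ := hp'
  have h1' : y + p.2 < W := by
    have := Nat.blt_eq (x := y + p.2) (y := W)
    exact this.mp h1
  have := (mem_cellsOf C (x + p.1) (y + p.2) h1').mpr h2
  simpa using this

lemma refOK_sound (t : T) (j C N v : ℕ) (h : refOK t j C N v = true)
    (ih : ∀ i < j, Valid t i) :
    PM {c | c ∈ cellsOf (patC t (v % 2 ^ 20)) ∧ c ≠ cellAt (v / 2 ^ 20)} (cellsOf (refZ t v)) ∧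
    (∀ c, c ∈ cellsOf (patC t (v % 2 ^ 20)) ∧ c ≠ cellAt (v / 2 ^ 20) → c ∈ cellsOf C) ∧
    (∀ c ∈ cellsOf (refZ t v), c ∈ cellsOf N ∨ c ∈ cellsOf C) := by
  unfold refOK at h
  rw [Bool.and_eq_true, Bool.and_eq_true] at h
  obtain ⟨⟨h1, h2⟩, h3⟩ := h
  have h1' : v % 2 ^ 20 < j := by
    have := Nat.blt_eq (x := v % 2 ^ 20) (y := j)
    exact this.mp h1
  refine ⟨?_, ?_, ?_⟩
  · have := PM_of_PB _ _ (cellAt (v / 2 ^ 20)) (ih _ h1')
    refine PM_weaken this (fun x hx => hx) ?_
    intro x hx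
    left
    unfold refZ
    rw [cellsOf_or, cellsOf_bit]
    exact hx
  · rintro c ⟨hc1, hc2⟩
    have := sub_cells h2 c hc1
    rw [cellsOf_or, cellsOf_bit] at this
    rcases this with h4 | h4
    · exact h4
    · exact absurd h4 hc2
  · intro c hc
    have := sub_cells h3 c hc
    rw [cellsOf_or] at this
    exact this

lemma loop_sound (t : T) (j C N R : ℕ) :
    ∀ (cnt k X : ℕ), loopRefs t j C N R cnt k X = true →
      (∀ i < cnt, refOK t j C N ((R >>> (1024 + 32 * (k + i))) % 2 ^ 32) = true) ∧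
      ∀ c ∈ cellsOf X, (∀ i < cnt, c ∈ cellsOf (refZ t ((R >>> (1024 + 32 * (k + i))) % 2 ^ 32))) →
        c ∈ cellsOf C := by
  intro cnt
  induction cnt with
  | zero =>
    intro k X h
    refine ⟨fun i hi => absurd hi (Nat.not_lt_zero i), ?_⟩
    intro c hc _
    exact sub_cells h c hc
  | succ cnt ih =>
    intro k X h
    unfold loopRefs at h
    rw [Bool.and_eq_true] at h
    obtain ⟨h1, h2⟩ := h
    obtain ⟨h3, h4⟩ := ih _ _ h2
    constructor
    · intro i hi
      rcases Nat.eq_zero_or_pos i with h0 | h0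
      · subst h0; simpa using h1
      · have := h3 (i - 1) (by omega)
        have e : k + 1 + (i - 1) = k + i := by omega
        rw [e] at this
        exact this
    · intro c hc hall
      apply h4 c
      · apply cellsOf_and _ _ _ hc
        have := hall 0 (Nat.succ_pos _)
        simpa using this
      · intro i hi
        have := hall (i + 1) (by omega)
        have e : k + 1 + i = k + (i + 1) := by omega
        rw [e]
        exact this

theorem checkPat_sound (t : T) (j : ℕ) (h : checkPat t j = true) (ih : ∀ i < j, Valid t i) :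
    Valid t j := by
  unfold checkPat at h
  simp only at h
  unfold Valid
  split at h
  · exact baseOK_sound _ _ _ _ h _
  · rename_i cnt0 c hc
    obtain ⟨h1, h2⟩ := loop_sound _ _ _ _ _ _ _ _ h
    set R := t.getR (j / 64)
    set k := (R >>> (16 * (j % 64))) % 2 ^ 16 / 2 ^ 5
    have h5 := fun i (hi : i < c + 1) => refOK_sound t j _ _ _ (h1 i hi) ih
    refine PB_of_PM (Finset.range (c + 1))
      (fun i => {x | x ∈ cellsOf (patC t (((R >>> (1024 + 32 * (k + i))) % 2 ^ 32) % 2 ^ 20)) ∧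
        x ≠ cellAt (((R >>> (1024 + 32 * (k + i))) % 2 ^ 32) / 2 ^ 20)})
      (fun i => cellsOf (refZ t ((R >>> (1024 + 32 * (k + i))) % 2 ^ 32))) _ _ ?_ ?_ ?_ ?_
    · intro i hi
      rw [Finset.mem_range] at hi
      exact (h5 i hi).1
    · intro i hi x hx
      rw [Finset.mem_range] at hi
      exact (h5 i hi).2.1 x hx
    · intro i hi x hx
      rw [Finset.mem_range] at hi
      exact (h5 i hi).2.2 x hx
    · intro x hx
      apply h2 x
      · have := hx 0 (Finset.mem_range.mpr (Nat.succ_pos _))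
        simpa using this
      · intro i hi
        exact hx i (Finset.mem_range.mpr hi)

lemma checkRange_sound (t : T) : ∀ (len a : ℕ), checkRange t a len = true →
    ∀ i, a ≤ i → i < a + len → checkPat t i = true := by
  intro len
  induction len with
  | zero => intro a _ i h1 h2; omega
  | succ len ih =>
    intro a h i h1 h2
    unfold checkRange at h
    rw [Bool.and_eq_true] at h
    rcases Nat.lt_or_ge i (a + len) with h3 | h3
    · exact ih a h.2 i h1 h3
    · have : i = a + len := by omega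
      subst this
      exact h.1

theorem valid_of_check (t : T) (n : ℕ) (h : ∀ i < n, checkPat t i = true) :
    ∀ i < n, Valid t i := by
  intro i
  induction i using Nat.strong_induction_on with
  | _ i ih =>
    intro hi
    exact checkPat_sound t i (h i hi) (fun k hk => ih k hk (by omega))

end Vale.Agent.H5.Snaky
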