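import Vale.Agent.H5.SnakyDTree

namespace Vale.Agent.H5.Snaky.SnakyD

open Vale.Agent.H5.Snaky

theorem c26 : checkRange tr 13312 512 = true := by decide +kernel

end Vale.Agent.H5.Snaky.SnakyD
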