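import Vale.Agent.H5.SnakySym
import Vale.Agent.H5.SnakyDChk0
import Vale.Agent.H5.SnakyDChk1
import Vale.Agent.H5.SnakyDChk2
import Vale.Agent.H5.SnakyDChk3
import Vale.Agent.H5.SnakyDChk4
import Vale.Agent.H5.SnakyDChk5
import Vale.Agent.H5.SnakyDChk6
import Vale.Agent.H5.SnakyDChk7
import Vale.Agent.H5.SnakyDChk8
import Vale.Agent.H5.SnakyDChk9
import Vale.Agent.H5.SnakyDChk10
import Vale.Agent.H5.SnakyDChk11
import Vale.Agent.H5.SnakyDChk12
import Vale.Agent.H5.SnakyDChk13
import Vale.Agent.H5.SnakyDChk14
import Vale.Agent.H5.SnakyDChk15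
import Vale.Agent.H5.SnakyDChk16
import Vale.Agent.H5.SnakyDChk17
import Vale.Agent.H5.SnakyDChk18
import Vale.Agent.H5.SnakyDChk19
import Vale.Agent.H5.SnakyDChk20
import Vale.Agent.H5.SnakyDChk21
import Vale.Agent.H5.SnakyDChk22
import Vale.Agent.H5.SnakyDChk23
import Vale.Agent.H5.SnakyDChk24
import Vale.Agent.H5.SnakyDChk25
import Vale.Agent.H5.SnakyDChk26
import Vale.Agent.H5.SnakyDChk27
import Vale.Agent.H5.SnakyDChk28
import Vale.Agent.H5.SnakyDChk29
import Vale.Agent.H5.SnakyDChk30
import Vale.Agent.H5.SnakyDChk31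
import Vale.Agent.H5.SnakyDChk32
import Vale.Agent.H5.SnakyDChk33
import Vale.Agent.H5.SnakyDChk34
import Vale.Agent.H5.SnakyDChk35
import Vale.Agent.H5.SnakyDChk36
import Vale.Agent.H5.SnakyDChk37
import Vale.Agent.H5.SnakyDChk38
import Vale.Agent.H5.SnakyDChk39
import Vale.Agent.H5.SnakyDChk40
import Vale.Agent.H5.SnakyDChk41
import Vale.Agent.H5.SnakyDChk42
import Vale.Agent.H5.SnakyDChk43
import Vale.Agent.H5.SnakyDChk44
import Vale.Agent.H5.SnakyDChk45
import Vale.Agent.H5.SnakyDChk46
import Vale.Agent.H5.SnakyDChk47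

namespace Vale.Agent.H5.Snaky.SnakyD

open Vale.Agent.H5.Snaky

lemma allOK : ∀ i < 24415, checkPat tr i = true := by
  intro i hi
  rcases Nat.lt_or_ge i 512 with h0 | h0
  · exact checkRange_sound tr 512 0 c0 i (by omega) (by omega)
  rcases Nat.lt_or_ge i 1024 with h1 | h1
  · exact checkRange_sound tr 512 512 c1 i (by omega) (by omega)
  rcases Nat.lt_or_ge i 1536 with h2 | h2
  · exact checkRange_sound tr 512 1024 c2 i (by omega) (by omega)
  rcases Nat.lt_or_ge i 2048 with h3 | h3
  · exact checkRange_sound tr 512 1536 c3 i (by omega) (by omega)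
  rcases Nat.lt_or_ge i 2560 with h4 | h4
  · exact checkRange_sound tr 512 2048 c4 i (by omega) (by omega)
  rcases Nat.lt_or_ge i 3072 with h5 | h5
  · exact checkRange_sound tr 512 2560 c5 i (by omega) (by omega)
  rcases Nat.lt_or_ge i 3584 with h6 | h6
  · exact checkRange_sound tr 512 3072 c6 i (by omega) (by omega)
  rcases Nat.lt_or_ge i 4096 with h7 | h7
  · exact checkRange_sound tr 512 3584 c7 i (by omega) (by omega)
  rcases Nat.lt_or_ge i 4608 with h8 | h8
  · exact checkRange_sound tr 512 4096 c8 i (by omega) (by omega)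
  rcases Nat.lt_or_ge i 5120 with h9 | h9
  · exact checkRange_sound tr 512 4608 c9 i (by omega) (by omega)
  rcases Nat.lt_or_ge i 5632 with h10 | h10
  · exact checkRange_sound tr 512 5120 c10 i (by omega) (by omega)
  rcases Nat.lt_or_ge i 6144 with h11 | h11
  · exact checkRange_sound tr 512 5632 c11 i (by omega) (by omega)
  rcases Nat.lt_or_ge i 6656 with h12 | h12
  · exact checkRange_sound tr 512 6144 c12 i (by omega) (by omega)
  rcases Nat.lt_or_ge i 7168 with h13 | h13
  · exact checkRange_sound tr 512 6656 c13 i (by omega) (by omega)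
  rcases Nat.lt_or_ge i 7680 with h14 | h14
  · exact checkRange_sound tr 512 7168 c14 i (by omega) (by omega)
  rcases Nat.lt_or_ge i 8192 with h15 | h15
  · exact checkRange_sound tr 512 7680 c15 i (by omega) (by omega)
  rcases Nat.lt_or_ge i 8704 with h16 | h16
  · exact checkRange_sound tr 512 8192 c16 i (by omega) (by omega)
  rcases Nat.lt_or_ge i 9216 with h17 | h17
  · exact checkRange_sound tr 512 8704 c17 i (by omega) (by omega)
  rcases Nat.lt_or_ge i 9728 with h18 | h18
  · exact checkRange_sound tr 512 9216 c18 i (by omega) (by omega)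
  rcases Nat.lt_or_ge i 10240 with h19 | h19
  · exact checkRange_sound tr 512 9728 c19 i (by omega) (by omega)
  rcases Nat.lt_or_ge i 10752 with h20 | h20
  · exact checkRange_sound tr 512 10240 c20 i (by omega) (by omega)
  rcases Nat.lt_or_ge i 11264 with h21 | h21
  · exact checkRange_sound tr 512 10752 c21 i (by omega) (by omega)
  rcases Nat.lt_or_ge i 11776 with h22 | h22
  · exact checkRange_sound tr 512 11264 c22 i (by omega) (by omega)
  rcases Nat.lt_or_ge i 12288 with h23 | h23
  · exact checkRange_sound tr 512 11776 c23 i (by omega) (by omega)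
  rcases Nat.lt_or_ge i 12800 with h24 | h24
  · exact checkRange_sound tr 512 12288 c24 i (by omega) (by omega)
  rcases Nat.lt_or_ge i 13312 with h25 | h25
  · exact checkRange_sound tr 512 12800 c25 i (by omega) (by omega)
  rcases Nat.lt_or_ge i 13824 with h26 | h26
  · exact checkRange_sound tr 512 13312 c26 i (by omega) (by omega)
  rcases Nat.lt_or_ge i 14336 with h27 | h27
  · exact checkRange_sound tr 512 13824 c27 i (by omega) (by omega)
  rcases Nat.lt_or_ge i 14848 with h28 | h28
  · exact checkRange_sound tr 512 14336 c28 i (by omega) (by omega)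
  rcases Nat.lt_or_ge i 15360 with h29 | h29
  · exact checkRange_sound tr 512 14848 c29 i (by omega) (by omega)
  rcases Nat.lt_or_ge i 15872 with h30 | h30
  · exact checkRange_sound tr 512 15360 c30 i (by omega) (by omega)
  rcases Nat.lt_or_ge i 16384 with h31 | h31
  · exact checkRange_sound tr 512 15872 c31 i (by omega) (by omega)
  rcases Nat.lt_or_ge i 16896 with h32 | h32
  · exact checkRange_sound tr 512 16384 c32 i (by omega) (by omega)
  rcases Nat.lt_or_ge i 17408 with h33 | h33
  · exact checkRange_sound tr 512 16896 c33 i (by omega) (by omega)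
  rcases Nat.lt_or_ge i 17920 with h34 | h34
  · exact checkRange_sound tr 512 17408 c34 i (by omega) (by omega)
  rcases Nat.lt_or_ge i 18432 with h35 | h35
  · exact checkRange_sound tr 512 17920 c35 i (by omega) (by omega)
  rcases Nat.lt_or_ge i 18944 with h36 | h36
  · exact checkRange_sound tr 512 18432 c36 i (by omega) (by omega)
  rcases Nat.lt_or_ge i 19456 with h37 | h37
  · exact checkRange_sound tr 512 18944 c37 i (by omega) (by omega)
  rcases Nat.lt_or_ge i 19968 with h38 | h38
  · exact checkRange_sound tr 512 19456 c38 i (by omega) (by omega)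
  rcases Nat.lt_or_ge i 20480 with h39 | h39
  · exact checkRange_sound tr 512 19968 c39 i (by omega) (by omega)
  rcases Nat.lt_or_ge i 20992 with h40 | h40
  · exact checkRange_sound tr 512 20480 c40 i (by omega) (by omega)
  rcases Nat.lt_or_ge i 21504 with h41 | h41
  · exact checkRange_sound tr 512 20992 c41 i (by omega) (by omega)
  rcases Nat.lt_or_ge i 22016 with h42 | h42
  · exact checkRange_sound tr 512 21504 c42 i (by omega) (by omega)
  rcases Nat.lt_or_ge i 22528 with h43 | h43
  · exact checkRange_sound tr 512 22016 c43 i (by omega) (by omega)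
  rcases Nat.lt_or_ge i 23040 with h44 | h44
  · exact checkRange_sound tr 512 22528 c44 i (by omega) (by omega)
  rcases Nat.lt_or_ge i 23552 with h45 | h45
  · exact checkRange_sound tr 512 23040 c45 i (by omega) (by omega)
  rcases Nat.lt_or_ge i 24064 with h46 | h46
  · exact checkRange_sound tr 512 23552 c46 i (by omega) (by omega)
  exact checkRange_sound tr 351 24064 c47 i (by omega) (by omega)

lemma allValid : ∀ i < 24415, Valid tr i := valid_of_check tr 24415 allOK

def z0 : ℕ := 0xa3a05ffe1fffb7fffffffffffffffffffffffff7fffefffffffffffdfffffffff7fffc7fff8fffe0fff407fc0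

lemma root0 : PM {O} (cellsOf z0) :=
  PM_of_valid tr 18870 163 z0 (allValid 18870 (by norm_num)) (by decide +kernel) (by decide +kernel)

def z1 : ℕ := 0xa0001c000f8005f000ff007ff81fff07efe0fef83fff8ffff1fffc3fff81ffe01ff003f400140000000

lemma root1 : PM {O} (cellsOf z1) :=
  PM_of_valid tr 21572 161 z1 (allValid 21572 (by norm_num)) (by decide +kernel) (by decide +kernel)

def z2 : ℕ := 0x4f800ff001fe01fbf07ffe0fef81fffcffff1ffff3fff81ffa01ff003f400140000000

lemma root2 : PM {O} (cellsOf z2) :=
  PM_of_valid tr 22540 179 z2 (allValid 22540 (by norm_num)) (by decide +kernel) (by decide +kernel)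

def z3 : ℕ := 0x8001f001fe003fc0077e03ffc07ef81fffc3fff07fff07ff803fc007f8007500000000000

lemma root3 : PM {O} (cellsOf z3) :=
  PM_of_valid tr 23804 181 z3 (allValid 23804 (by norm_num)) (by decide +kernel) (by decide +kernel)

def z4 : ℕ := 0x78003f000fe01eff07ffe0fefc1fff8ffff1fffc3fff81ffe01ff003f400140000000

lemma root4 : PM {O} (cellsOf z4) :=
  PM_of_valid tr 24006 161 z4 (allValid 24006 (by norm_num)) (by decide +kernel) (by decide +kernel)

def z5 : ℕ := 0x47800ef001de01fff07ffe0fef81fff8fffe1fffc3fff81ff801ff003f400140000000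

lemma root5 : PM {O} (cellsOf z5) :=
  PM_of_valid tr 24165 179 z5 (allValid 24165 (by norm_num)) (by decide +kernel) (by decide +kernel)

def z6 : ℕ := 0xf8001f000bf01fff07ffe0fef81fffcffff1ffff3fff01ffa01ff003f400140000000

lemma root6 : PM {O} (cellsOf z6) :=
  PM_of_valid tr 24237 179 z6 (allValid 24237 (by norm_num)) (by decide +kernel) (by decide +kernel)

def z7 : ℕ := 0x1f8003f0077e007ff01ffe01ef807ffc07ff01fff01ff000fa000f0001400000000000

lemma root7 : PM {O} (cellsOf z7) :=
  PM_of_valid tr 24414 179 z7 (allValid 24414 (by norm_num)) (by decide +kernel) (by decide +kernel)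

lemma rc : rootCheck [z0, z1, z2, z3, z4, z5, z6, z7] = true := by decide +kernel

theorem maker_wins : ∃ (σ : Strategy) (K : ℕ), WinsWithin σ K := by
  refine final [z0, z1, z2, z3, z4, z5, z6, z7] ?_ (by simp) rc
  intro N hN
  simp only [List.mem_cons, List.not_mem_nil, or_false] at hN
  rcases hN with rfl | rfl | rfl | rfl | rfl | rfl | rfl | rfl
  · exact ⟨root0, by decide +kernel⟩
  · exact ⟨root1, by decide +kernel⟩
  · exact ⟨root2, by decide +kernel⟩
  · exact ⟨root3, by decide +kernel⟩
  · exact ⟨root4, by decide +kernel⟩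
  · exact ⟨root5, by decide +kernel⟩
  · exact ⟨root6, by decide +kernel⟩
  · exact ⟨root7, by decide +kernel⟩

end Vale.Agent.H5.Snaky.SnakyD
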