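import Mathlib

namespace Vale.Agent.H5.Snaky

/-- A cell of the square grid, indexed by its lower-left corner. -/
abbrev Cell : Type := ℤ × ℤ

/-- The hexomino Snaky. -/
def S : Finset Cell := {(0, 0), (1, 0), (2, 0), (3, 0), (3, 1), (4, 1)}

/-- The action on cells of one of the eight signed `2 × 2` permutation matrices:
`a, b ∈ {1, -1}` are the two nonzero entries and `swap` says whether the coordinates are
exchanged. -/
def act (a b : ℤ) (swap : Bool) (c : Cell) : Cell :=
  if swap then (a * c.2, b * c.1) else (a * c.1, b * c.2)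

/-- `A` is an allowed copy `t + R(S)` of Snaky. -/
def IsCopy (A : Finset Cell) : Prop :=
  ∃ (a b : ℤ) (swap : Bool) (t : Cell), (a = 1 ∨ a = -1) ∧ (b = 1 ∨ b = -1) ∧
    A = S.image (fun c => t + act a b swap c)

/-- A strategy for Maker (who moves first): it maps the list of all earlier claims of Breaker, in
order, to the next cell claimed by Maker. -/
abbrev Strategy : Type := List Cell → Cell

/-- The cell claimed by Maker on turn `n` (turns are numbered `0, 1, 2, ...`) when Maker follows
the strategy `σ` and Breaker's successive claims are `b 0, b 1, b 2, ...`. The order of play is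
`makerMove σ b 0, b 0, makerMove σ b 1, b 1, ...`. -/
def makerMove (σ : Strategy) (b : ℕ → Cell) (n : ℕ) : Cell :=
  σ ((List.range n).map b)

/-- The cell `c` has been claimed, by Maker or by Breaker, before Maker's turn `n`. -/
def ClaimedBefore (σ : Strategy) (b : ℕ → Cell) (n : ℕ) (c : Cell) : Prop :=
  ∃ i < n, c = makerMove σ b i ∨ c = b i

/-- The first `K` claims `b 0, ..., b (K-1)` of Breaker are legal: each one is a previously
unclaimed cell. -/
def BreakerLegal (σ : Strategy) (b : ℕ → Cell) (K : ℕ) : Prop :=
  ∀ n < K, ¬ ClaimedBefore σ b n (b n) ∧ b n ≠ makerMove σ b n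

/-- After Maker's claim on turn `n`, Maker owns every cell of some allowed copy. -/
def MakerOwnsCopy (σ : Strategy) (b : ℕ → Cell) (n : ℕ) : Prop :=
  ∃ A, IsCopy A ∧ ∀ c ∈ A, ∃ i ≤ n, c = makerMove σ b i

/-- Following `σ`, Maker owns an allowed copy after at most `K + 1` claims, against every legal
play of Breaker, and all these claims of Maker are legal. -/
def WinsWithin (σ : Strategy) (K : ℕ) : Prop :=
  ∀ b : ℕ → Cell, BreakerLegal σ b K →
    (∀ n ≤ K, ¬ ClaimedBefore σ b n (makerMove σ b n)) ∧ ∃ n ≤ K, MakerOwnsCopy σ b n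

end Vale.Agent.H5.Snaky
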