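import Vale.Agent.H5.SnakyPart
import Vale.Agent.H5.SnakyEChk0
import Vale.Agent.H5.SnakyEChk1
import Vale.Agent.H5.SnakyEChk2
import Vale.Agent.H5.SnakyEChk3
import Vale.Agent.H5.SnakyEChk4
import Vale.Agent.H5.SnakyEChk5
import Vale.Agent.H5.SnakyEChk6
import Vale.Agent.H5.SnakyEChk7
import Vale.Agent.H5.SnakyEChk8
import Vale.Agent.H5.SnakyEChk9
import Vale.Agent.H5.SnakyEChk10
import Vale.Agent.H5.SnakyEChk11
import Vale.Agent.H5.SnakyEChk12
import Vale.Agent.H5.SnakyEChk13

namespace Vale.Agent.H5.Snaky.SnakyE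

open Vale.Agent.H5.Snaky

lemma allOK : ∀ i < 6738, checkPat tr i = true := by
  intro i hi
  rcases Nat.lt_or_ge i 512 with h0 | h0
  · exact checkRange_sound tr 512 0 c0 i (by omega) (by omega)
  rcases Nat.lt_or_ge i 1024 with h1 | h1
  · exact checkRange_sound tr 512 512 c1 i (by omega) (by omega)
  rcases Nat.lt_or_ge i 1536 with h2 | h2
  · exact checkRange_sound tr 512 1024 c2 i (by omega) (by omega)
  rcases Nat.lt_or_ge i 2048 with h3 | h3
  · exact checkRange_sound tr 512 1536 c3 i (by omega) (by omega)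
  rcases Nat.lt_or_ge i 2560 with h4 | h4
  · exact checkRange_sound tr 512 2048 c4 i (by omega) (by omega)
  rcases Nat.lt_or_ge i 3072 with h5 | h5
  · exact checkRange_sound tr 512 2560 c5 i (by omega) (by omega)
  rcases Nat.lt_or_ge i 3584 with h6 | h6
  · exact checkRange_sound tr 512 3072 c6 i (by omega) (by omega)
  rcases Nat.lt_or_ge i 4096 with h7 | h7
  · exact checkRange_sound tr 512 3584 c7 i (by omega) (by omega)
  rcases Nat.lt_or_ge i 4608 with h8 | h8
  · exact checkRange_sound tr 512 4096 c8 i (by omega) (by omega)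
  rcases Nat.lt_or_ge i 5120 with h9 | h9
  · exact checkRange_sound tr 512 4608 c9 i (by omega) (by omega)
  rcases Nat.lt_or_ge i 5632 with h10 | h10
  · exact checkRange_sound tr 512 5120 c10 i (by omega) (by omega)
  rcases Nat.lt_or_ge i 6144 with h11 | h11
  · exact checkRange_sound tr 512 5632 c11 i (by omega) (by omega)
  rcases Nat.lt_or_ge i 6656 with h12 | h12
  · exact checkRange_sound tr 512 6144 c12 i (by omega) (by omega)
  exact checkRange_sound tr 82 6656 c13 i (by omega) (by omega)

lemma allValid : ∀ i < 6738, Valid tr i := valid_of_check tr 6738 allOK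

def z0 : ℕ := 0xa0001c000f8005f000ff007ff81fff07efe0fef83fff8ffff1fffc3fff81ffe01ff003f400140000000

lemma root0 : PM {O} (cellsOf z0) :=
  PM_of_valid tr 3541 161 z0 (allValid 3541 (by norm_num)) (by decide +kernel) (by decide +kernel)

def z1 : ℕ := 0x4f800ff001fe01fbf07ffe0fef81fffcffff1ffff3fff81ffa01ff003f400140000000

lemma root1 : PM {O} (cellsOf z1) :=
  PM_of_valid tr 4713 179 z1 (allValid 4713 (by norm_num)) (by decide +kernel) (by decide +kernel)

def z2 : ℕ := 0x8001f001fe003fc0077e03ffc07ef81fffc3fff07fff07ff803fc007f8007500000000000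

lemma root2 : PM {O} (cellsOf z2) :=
  PM_of_valid tr 6092 181 z2 (allValid 6092 (by norm_num)) (by decide +kernel) (by decide +kernel)

def z3 : ℕ := 0x78003f000fe01eff07ffe0fefc1fff8ffff1fffc3fff81ffe01ff003f400140000000

lemma root3 : PM {O} (cellsOf z3) :=
  PM_of_valid tr 6305 161 z3 (allValid 6305 (by norm_num)) (by decide +kernel) (by decide +kernel)

def z4 : ℕ := 0x47800ef001de01fff07ffe0fef81fff8fffe1fffc3fff81ff801ff003f400140000000

lemma root4 : PM {O} (cellsOf z4) :=
  PM_of_valid tr 6476 179 z4 (allValid 6476 (by norm_num)) (by decide +kernel) (by decide +kernel)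

def z5 : ℕ := 0xf8001f000bf01fff07ffe0fef81fffcffff1ffff3fff01ffa01ff003f400140000000

lemma root5 : PM {O} (cellsOf z5) :=
  PM_of_valid tr 6555 179 z5 (allValid 6555 (by norm_num)) (by decide +kernel) (by decide +kernel)

def z6 : ℕ := 0x1f8003f0077e007ff01ffe01ef807ffc07ff01fff01ff000fa000f0001400000000000

lemma root6 : PM {O} (cellsOf z6) :=
  PM_of_valid tr 6737 179 z6 (allValid 6737 (by norm_num)) (by decide +kernel) (by decide +kernel)

lemma rc : rootCheckPart [z0, z1, z2, z3, z4, z5, z6] = true := by decide +kernel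

theorem maker_wins : ∃ (σ : Strategy) (K : ℕ), WinsWithinUnlessAdjacent σ K := by
  refine finalPart [z0, z1, z2, z3, z4, z5, z6] ?_ (by simp) rc
  intro N hN
  simp only [List.mem_cons, List.not_mem_nil, or_false] at hN
  rcases hN with rfl | rfl | rfl | rfl | rfl | rfl | rfl
  · exact ⟨root0, by decide +kernel⟩
  · exact ⟨root1, by decide +kernel⟩
  · exact ⟨root2, by decide +kernel⟩
  · exact ⟨root3, by decide +kernel⟩
  · exact ⟨root4, by decide +kernel⟩
  · exact ⟨root5, by decide +kernel⟩
  · exact ⟨root6, by decide +kernel⟩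

end Vale.Agent.H5.Snaky.SnakyE
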