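import Vale.Agent.H5.SnakyDefs

namespace Vale.Agent.H5.Snaky

open Finset

/-- Maker's set of cells contains a copy. -/
def Has (M : Finset Cell) : Prop := ∃ A, IsCopy A ∧ A ⊆ M

/-- `MW k M B`: Maker to move at the position with Maker cells `M` and Breaker cells `B` can
complete a copy within `k` further claims. -/
def MW : ℕ → Finset Cell → Finset Cell → Prop
  | 0, M, _ => Has M
  | k + 1, M, B => Has M ∨ ∃ c, c ∉ M ∧ c ∉ B ∧
      ∀ d, d ∉ insert c M → d ∉ B → MW k (insert c M) (insert d B)

lemma MW_succ : ∀ (k : ℕ) (M B : Finset Cell), MW k M B → MW (k + 1) M B := by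
  intro k
  induction k with
  | zero => intro M B h; exact Or.inl h
  | succ k ih =>
    intro M B h
    rcases h with h | ⟨c, hc, hc', h⟩
    · exact Or.inl h
    · exact Or.inr ⟨c, hc, hc', fun d hd hd' => ih _ _ (h d hd hd')⟩

lemma MW_mono {k l : ℕ} (hkl : k ≤ l) {M B : Finset Cell} (h : MW k M B) : MW l M B := by
  induction hkl with
  | refl => exact h
  | step _ ih => exact MW_succ _ _ _ ih

lemma exists_free (M B : Finset Cell) : ∃ c : Cell, c ∉ M ∧ c ∉ B := by
  obtain ⟨c, hc⟩ := Infinite.exists_notMem_finset (M ∪ B)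
  rw [notMem_union] at hc
  exact ⟨c, hc.1, hc.2⟩

/-- `c` is a free cell such that after claiming it Maker wins within `k` further claims -/
def Good (M B : Finset Cell) (k : ℕ) (c : Cell) : Prop :=
  c ∉ M ∧ c ∉ B ∧ ∀ d, d ∉ insert c M → d ∉ B → MW k (insert c M) (insert d B)

/-- there is a best good cell if there is a good one -/
lemma exists_move (M B : Finset Cell) :
    ∃ c, (c ∉ M ∧ c ∉ B) ∧ ∀ k, (∃ c', Good M B k c') → Good M B k c := by
  classical
  by_cases h : ∃ k, ∃ c, Good M B k c
  · obtain ⟨c, hc⟩ := Nat.find_spec h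
    refine ⟨c, ⟨hc.1, hc.2.1⟩, ?_⟩
    intro k hk
    have hle : Nat.find h ≤ k := Nat.find_min' h hk
    exact ⟨hc.1, hc.2.1, fun d hd hd' => MW_mono hle (hc.2.2 d hd hd')⟩
  · obtain ⟨c, hc⟩ := exists_free M B
    refine ⟨c, hc, ?_⟩
    intro k hk
    exact absurd ⟨k, hk⟩ h

/-- the positional strategy -/
noncomputable def fmove (M B : Finset Cell) : Cell := (exists_move M B).choose

lemma fmove_free (M B : Finset Cell) : fmove M B ∉ M ∧ fmove M B ∉ B :=
  (exists_move M B).choose_spec.1

lemma fmove_win {k : ℕ} {M B : Finset Cell} (h : MW (k + 1) M B) (hM : ¬ Has M) :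
    ∀ d, d ∉ insert (fmove M B) M → d ∉ B → MW k (insert (fmove M B) M) (insert d B) := by
  rcases h with h | h
  · exact absurd h hM
  exact ((exists_move M B).choose_spec.2 k h).2.2

/-- position after a list of Breaker's claims (in order) -/
noncomputable def pos (l : List Cell) : Finset Cell × Finset Cell :=
  l.foldl (fun p d => (insert (fmove p.1 p.2) p.1, insert d p.2)) (∅, ∅)

noncomputable def strat : Strategy := fun l => fmove (pos l).1 (pos l).2

lemma pos_range_succ (b : ℕ → Cell) (n : ℕ) :
    pos ((List.range (n + 1)).map b) =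
      (insert (makerMove strat b n) (pos ((List.range n).map b)).1,
        insert (b n) (pos ((List.range n).map b)).2) := by
  rw [List.range_succ, List.map_append, List.map_singleton]
  unfold pos
  rw [List.foldl_append]
  rfl

lemma mem_pos_fst (b : ℕ → Cell) (n : ℕ) (c : Cell) :
    c ∈ (pos ((List.range n).map b)).1 ↔ ∃ i < n, c = makerMove strat b i := by
  induction n with
  | zero => simp [pos]
  | succ n ih =>
    rw [pos_range_succ]
    simp only [mem_insert, ih]
    constructor
    · rintro (h | ⟨i, hi, h⟩)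
      · exact ⟨n, Nat.lt_succ_self n, h⟩
      · exact ⟨i, by omega, h⟩
    · rintro ⟨i, hi, h⟩
      rcases Nat.lt_succ_iff_lt_or_eq.mp hi with h1 | h1
      · exact Or.inr ⟨i, h1, h⟩
      · subst h1; exact Or.inl h

lemma mem_pos_snd (b : ℕ → Cell) (n : ℕ) (c : Cell) :
    c ∈ (pos ((List.range n).map b)).2 ↔ ∃ i < n, c = b i := by
  induction n with
  | zero => simp [pos]
  | succ n ih =>
    rw [pos_range_succ]
    simp only [mem_insert, ih]
    constructor
    · rintro (h | ⟨i, hi, h⟩)
      · exact ⟨n, Nat.lt_succ_self n, h⟩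
      · exact ⟨i, by omega, h⟩
    · rintro ⟨i, hi, h⟩
      rcases Nat.lt_succ_iff_lt_or_eq.mp hi with h1 | h1
      · exact Or.inr ⟨i, h1, h⟩
      · subst h1; exact Or.inl h

lemma claimed_iff (b : ℕ → Cell) (n : ℕ) (c : Cell) :
    ClaimedBefore strat b n c ↔
      c ∈ (pos ((List.range n).map b)).1 ∨ c ∈ (pos ((List.range n).map b)).2 := by
  rw [mem_pos_fst, mem_pos_snd]
  unfold ClaimedBefore
  constructor
  · rintro ⟨i, hi, h | h⟩
    · exact Or.inl ⟨i, hi, h⟩
    · exact Or.inr ⟨i, hi, h⟩
  · rintro (⟨i, hi, h⟩ | ⟨i, hi, h⟩)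
    · exact ⟨i, hi, Or.inl h⟩
    · exact ⟨i, hi, Or.inr h⟩

/-- A position win gives a winning strategy. -/
theorem wins_of_MW (K : ℕ) (h : MW (K + 1) ∅ ∅) : WinsWithin strat K := by
  intro b hb
  have hlegal : ∀ n, ¬ ClaimedBefore strat b n (makerMove strat b n) := by
    intro n
    rw [claimed_iff]
    have := fmove_free (pos ((List.range n).map b)).1 (pos ((List.range n).map b)).2
    rintro (h1 | h1)
    · exact this.1 h1
    · exact this.2 h1
  refine ⟨fun n _ => hlegal n, ?_⟩
  -- invariant
  have hinv : ∀ n ≤ K, (∃ m < n, MakerOwnsCopy strat b m) ∨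
      MW (K + 1 - n) (pos ((List.range n).map b)).1 (pos ((List.range n).map b)).2 := by
    intro n
    induction n with
    | zero => intro _; right; simpa [pos] using h
    | succ n ih =>
      intro hn
      rcases ih (by omega) with ⟨m, hm, hm'⟩ | hw
      · exact Or.inl ⟨m, by omega, hm'⟩
      · by_cases hH : Has (insert (makerMove strat b n) (pos ((List.range n).map b)).1)
        · left
          obtain ⟨A, hA, hAM⟩ := hH
          refine ⟨n, Nat.lt_succ_self n, A, hA, ?_⟩
          intro c hc
          have := hAM hc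
          rw [mem_insert, mem_pos_fst] at this
          rcases this with h1 | ⟨i, hi, h1⟩
          · exact ⟨n, le_rfl, h1⟩
          · exact ⟨i, hi.le, h1⟩
        · right
          have hH' : ¬ Has (pos ((List.range n).map b)).1 := by
            rintro ⟨A, hA, hAM⟩
            exact hH ⟨A, hA, hAM.trans (subset_insert _ _)⟩
          have e1 : K + 1 - n = (K + 1 - (n + 1)) + 1 := by omega
          rw [e1] at hw
          have key := fmove_win hw hH'
          obtain ⟨h1, h2⟩ := hb n (by omega)
          rw [claimed_iff] at h1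
          push Not at h1
          rw [pos_range_succ]
          apply key (b n)
          · rw [mem_insert]
            push Not
            exact ⟨h2, h1.1⟩
          · exact h1.2
  rcases hinv K le_rfl with ⟨m, hm, hm'⟩ | hw
  · exact ⟨m, hm.le, hm'⟩
  · have e1 : K + 1 - K = 0 + 1 := by omega
    rw [e1] at hw
    by_cases hH : Has (pos ((List.range K).map b)).1
    · obtain ⟨A, hA, hAM⟩ := hH
      refine ⟨K, le_rfl, A, hA, ?_⟩
      intro c hc
      have := hAM hc
      rw [mem_pos_fst] at this
      obtain ⟨i, hi, h1⟩ := this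
      exact ⟨i, hi.le, h1⟩
    · have key := fmove_win hw hH
      obtain ⟨d, hd, hd'⟩ := exists_free (insert (fmove (pos ((List.range K).map b)).1
        (pos ((List.range K).map b)).2) (pos ((List.range K).map b)).1) (pos ((List.range K).map b)).2
      obtain ⟨A, hA, hAM⟩ := key d hd hd'
      refine ⟨K, le_rfl, A, hA, ?_⟩
      intro c hc
      have := hAM hc
      rw [mem_insert, mem_pos_fst] at this
      rcases this with h1 | ⟨i, hi, h1⟩
      · exact ⟨K, le_rfl, h1⟩
      · exact ⟨i, hi.le, h1⟩

end Vale.Agent.H5.Snaky
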