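import Vale.Agent.H5.SnakyDefs

namespace Vale.Agent.H5.Snaky

/-- `d` is one of the four cells that share an edge with the cell `c`. -/
def EdgeAdjacent (c d : Cell) : Prop :=
  d = (c.1 + 1, c.2) ∨ d = (c.1 - 1, c.2) ∨ d = (c.1, c.2 + 1) ∨ d = (c.1, c.2 - 1)

/-- Following `σ`, Maker owns an allowed copy after at most `K + 1` claims, against every legal
play of Breaker whose first claim does not share an edge with Maker's first claim, and all these
claims of Maker are legal. -/
def WinsWithinUnlessAdjacent (σ : Strategy) (K : ℕ) : Prop :=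
  ∀ b : ℕ → Cell, BreakerLegal σ b K → ¬ EdgeAdjacent (makerMove σ b 0) (b 0) →
    (∀ n ≤ K, ¬ ClaimedBefore σ b n (makerMove σ b n)) ∧ ∃ n ≤ K, MakerOwnsCopy σ b n

end Vale.Agent.H5.Snaky
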