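import Vale.Agent.H5.SnakySym
import Vale.Agent.H5.SnakyPartDefs

namespace Vale.Agent.H5.Snaky

open Finset

/-- positions reached from `(M0, B0)` -/
noncomputable def posF (M0 B0 : Finset Cell) (b : ℕ → Cell) : ℕ → Finset Cell × Finset Cell
  | 0 => (M0, B0)
  | n + 1 => (insert (fmove (posF M0 B0 b n).1 (posF M0 B0 b n).2) (posF M0 B0 b n).1,
      insert (b n) (posF M0 B0 b n).2)

lemma winF (M0 B0 : Finset Cell) (b : ℕ → Cell) (K : ℕ) (h : MW (K + 1) M0 B0)
    (hb : ∀ n < K, b n ∉ insert (fmove (posF M0 B0 b n).1 (posF M0 B0 b n).2) (posF M0 B0 b n).1 ∧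
      b n ∉ (posF M0 B0 b n).2) :
    ∃ n ≤ K, Has (insert (fmove (posF M0 B0 b n).1 (posF M0 B0 b n).2) (posF M0 B0 b n).1) := by
  by_contra hcon
  push Not at hcon
  have hno : ∀ n ≤ K, ¬ Has (posF M0 B0 b n).1 := by
    rintro n hn ⟨A, hA, hAM⟩
    exact hcon n hn ⟨A, hA, hAM.trans (subset_insert _ _)⟩
  have hinv : ∀ n ≤ K, MW (K + 1 - n) (posF M0 B0 b n).1 (posF M0 B0 b n).2 := by
    intro n
    induction n with
    | zero => intro _; exact h
    | succ n ih =>
      intro hn
      have hw := ih (by omega)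
      have e1 : K + 1 - n = (K + 1 - (n + 1)) + 1 := by omega
      rw [e1] at hw
      exact fmove_win hw (hno n (by omega)) (b n) (hb n (by omega)).1 (hb n (by omega)).2
  have hw := hinv K le_rfl
  have e1 : K + 1 - K = 0 + 1 := by omega
  rw [e1] at hw
  obtain ⟨d, hd, hd'⟩ := exists_free (insert (fmove (posF M0 B0 b K).1 (posF M0 B0 b K).2)
    (posF M0 B0 b K).1) (posF M0 B0 b K).2
  exact hcon K le_rfl (fmove_win hw (hno K le_rfl) d hd hd')

/-- position from a list -/
noncomputable def posL (p : Finset Cell × Finset Cell) (l : List Cell) :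
    Finset Cell × Finset Cell :=
  l.foldl (fun p d => (insert (fmove p.1 p.2) p.1, insert d p.2)) p

lemma posL_range (M0 B0 : Finset Cell) (b : ℕ → Cell) (n : ℕ) :
    posL (M0, B0) ((List.range n).map b) = posF M0 B0 b n := by
  induction n with
  | zero => rfl
  | succ n ih =>
    rw [List.range_succ, List.map_append, List.map_singleton]
    unfold posL at ih ⊢
    rw [List.foldl_append, ih]
    rfl

/-- first claim `O`, then positional play -/
noncomputable def strat' : Strategy
  | [] => O
  | d :: l => fmove (posL ({O}, {d}) l).1 (posL ({O}, {d}) l).2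

lemma mm_zero (b : ℕ → Cell) : makerMove strat' b 0 = O := rfl

lemma mm_succ (b : ℕ → Cell) (n : ℕ) : makerMove strat' b (n + 1) =
    fmove (posF {O} {b 0} (fun i => b (i + 1)) n).1 (posF {O} {b 0} (fun i => b (i + 1)) n).2 := by
  unfold makerMove
  rw [List.range_succ_eq_map, List.map_cons, List.map_map]
  change fmove (posL ({O}, {b 0}) ((List.range n).map (b ∘ Nat.succ))).1 _ = _
  have e : (b ∘ Nat.succ) = (fun i => b (i + 1)) := rfl
  rw [e]
  have h2 := posL_range {O} {b 0} (fun i => b (i + 1)) n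
  rw [h2]

lemma mem_posF_fst (b : ℕ → Cell) (n : ℕ) (c : Cell) :
    c ∈ (posF {O} {b 0} (fun i => b (i + 1)) n).1 ↔ ∃ i < n + 1, c = makerMove strat' b i := by
  induction n with
  | zero =>
    simp only [posF, mem_singleton]
    constructor
    · intro h; exact ⟨0, by omega, h⟩
    · rintro ⟨i, hi, h⟩
      have : i = 0 := by omega
      subst this
      exact h
  | succ n ih =>
    simp only [posF, mem_insert, ih]
    rw [← mm_succ]
    constructor
    · rintro (h | ⟨i, hi, h⟩)
      · exact ⟨n + 1, by omega, h⟩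
      · exact ⟨i, by omega, h⟩
    · rintro ⟨i, hi, h⟩
      rcases Nat.lt_succ_iff_lt_or_eq.mp hi with h1 | h1
      · exact Or.inr ⟨i, h1, h⟩
      · subst h1; exact Or.inl h

lemma mem_posF_snd (b : ℕ → Cell) (n : ℕ) (c : Cell) :
    c ∈ (posF {O} {b 0} (fun i => b (i + 1)) n).2 ↔ ∃ i < n + 1, c = b i := by
  induction n with
  | zero =>
    simp only [posF, mem_singleton]
    constructor
    · intro h; exact ⟨0, by omega, h⟩
    · rintro ⟨i, hi, h⟩
      have : i = 0 := by omega
      subst this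
      exact h
  | succ n ih =>
    simp only [posF, mem_insert, ih]
    constructor
    · rintro (h | ⟨i, hi, h⟩)
      · exact ⟨n + 1, by omega, h⟩
      · exact ⟨i, by omega, h⟩
    · rintro ⟨i, hi, h⟩
      rcases Nat.lt_succ_iff_lt_or_eq.mp hi with h1 | h1
      · exact Or.inr ⟨i, h1, h⟩
      · subst h1; exact Or.inl h

lemma claimed_iff' (b : ℕ → Cell) (n : ℕ) (c : Cell) :
    ClaimedBefore strat' b (n + 1) c ↔
      c ∈ (posF {O} {b 0} (fun i => b (i + 1)) n).1 ∨
      c ∈ (posF {O} {b 0} (fun i => b (i + 1)) n).2 := by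
  rw [mem_posF_fst, mem_posF_snd]
  unfold ClaimedBefore
  constructor
  · rintro ⟨i, hi, h | h⟩
    · exact Or.inl ⟨i, hi, h⟩
    · exact Or.inr ⟨i, hi, h⟩
  · rintro (⟨i, hi, h⟩ | ⟨i, hi, h⟩)
    · exact ⟨i, hi, Or.inl h⟩
    · exact ⟨i, hi, Or.inr h⟩

theorem wins_partial (K : ℕ) (h : ∀ d, d ≠ O → ¬ EdgeAdjacent O d → MW (K + 1) {O} {d}) :
    WinsWithinUnlessAdjacent strat' (K + 1) := by
  intro b hb hadj
  have hlegal : ∀ n, ¬ ClaimedBefore strat' b n (makerMove strat' b n) := by
    intro n
    rcases n with _ | n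
    · rintro ⟨i, hi, _⟩; omega
    · rw [claimed_iff', mm_succ]
      have := fmove_free (posF {O} {b 0} (fun i => b (i + 1)) n).1
        (posF {O} {b 0} (fun i => b (i + 1)) n).2
      rintro (h1 | h1)
      · exact this.1 h1
      · exact this.2 h1
  refine ⟨fun n _ => hlegal n, ?_⟩
  have hb0 : b 0 ≠ O := by
    have := (hb 0 (by omega)).2
    rwa [mm_zero] at this
  rw [mm_zero] at hadj
  obtain ⟨n, hn, A, hA, hAM⟩ := winF {O} {b 0} (fun i => b (i + 1)) K (h (b 0) hb0 hadj) (by
    intro n hn
    obtain ⟨h1, h2⟩ := hb (n + 1) (by omega)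
    rw [claimed_iff'] at h1
    push Not at h1
    rw [mm_succ] at h2
    refine ⟨?_, h1.2⟩
    rw [mem_insert]
    push Not
    exact ⟨h2, h1.1⟩)
  refine ⟨n + 1, by omega, A, hA, ?_⟩
  intro c hc
  have := hAM hc
  rw [mem_insert, ← mm_succ, mem_posF_fst] at this
  rcases this with h1 | ⟨i, hi, h1⟩
  · exact ⟨n + 1, le_rfl, h1⟩
  · exact ⟨i, by omega, h1⟩

/-- root check that ignores the four cells edge-adjacent to `O` -/
def rootCheckPart (L : List ℕ) : Bool :=
  (List.range 19).all (fun x => (List.range 19).all (fun y => rootCell L x y ||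
    (Nat.beq x 9 && Nat.beq y 8) || (Nat.beq x 9 && Nat.beq y 10) ||
    (Nat.beq x 8 && Nat.beq y 9) || (Nat.beq x 10 && Nat.beq y 9)))

theorem finalPart (L : List ℕ) (hL : ∀ N ∈ L, PM {O} (cellsOf N) ∧ N < 2 ^ 361) (hne : L ≠ [])
    (hroot : rootCheckPart L = true) :
    ∃ (σ : Strategy) (K : ℕ), WinsWithinUnlessAdjacent σ K := by
  classical
  -- each zone image is a pattern with core `O`
  have hPM : ∀ q ∈ (syms.toFinset) ×ˢ L.toFinset,
      PM ({O} : Set Cell) {c | symFun (invA q.1.1 q.1.2.1 q.1.2.2) (invB q.1.1 q.1.2.1 q.1.2.2)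
        q.1.2.2 c ∈ cellsOf q.2} := by
    rintro ⟨p, N⟩ hq
    rw [mem_product, List.mem_toFinset, List.mem_toFinset] at hq
    obtain ⟨hp, hN⟩ := hq
    simp only at hp hN
    obtain ⟨h1, h2⟩ := syms_spec p hp
    have := PM_image (symEquiv p.1 p.2.1 p.2.2 h1 h2)
      (symEquiv_isSym p.1 p.2.1 p.2.2 h1 h2) _ _ (hL N hN).1
    refine PM_weaken this ?_ ?_
    · intro x hx
      have hx' : (symEquiv p.1 p.2.1 p.2.2 h1 h2).symm x = O := hx
      rw [Equiv.symm_apply_eq] at hx'
      have : (symEquiv p.1 p.2.1 p.2.2 h1 h2) O = O := by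
        change symFun p.1 p.2.1 p.2.2 O = O
        unfold symFun act
        simp
      rw [this] at hx'
      exact hx'
    · intro x hx
      exact Or.inl hx
  choose! f hf using hPM
  have hcov : ∀ d, d ≠ O → ¬ EdgeAdjacent O d → ∃ q ∈ (syms.toFinset) ×ˢ L.toFinset,
      ¬ (symFun (invA q.1.1 q.1.2.1 q.1.2.2) (invB q.1.1 q.1.2.1 q.1.2.2)
        q.1.2.2 d ∈ cellsOf q.2) := by
    intro c hcO hadj
    by_contra hcon
    push Not at hcon
    obtain ⟨N0, hN0⟩ := List.exists_mem_of_ne_nil L hne
    have h0 := hcon (((1 : ℤ), (1 : ℤ), false), N0) (by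
      rw [mem_product, List.mem_toFinset, List.mem_toFinset]
      exact ⟨List.mem_cons_self, hN0⟩)
    have h0' : c ∈ cellsOf N0 := by
      have e : symFun (invA 1 1 false) (invB 1 1 false) false c = c := by
        have e1 : act 1 1 false (c - O) = c - O := by simp [act]; rfl
        unfold symFun invA invB
        simp only [Bool.false_eq_true, if_false]
        rw [e1]
        abel
      have h00 : symFun (invA 1 1 false) (invB 1 1 false) false c ∈ cellsOf N0 := h0
      rw [e] at h00
      exact h00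
    obtain ⟨x, y, hy, rfl, ht⟩ := h0'
    have hy19 : y < 19 := hy
    have hx19 : x < 19 := by
      by_contra hx
      push Not at hx
      have hlt : N0 < 2 ^ (x * W + y) := by
        refine lt_of_lt_of_le (hL N0 hN0).2 ?_
        apply Nat.pow_le_pow_right (by norm_num)
        have : W = 19 := rfl
        rw [this]
        omega
      rw [Nat.testBit_lt_two_pow hlt] at ht
      exact Bool.noConfusion ht
    unfold rootCheckPart at hroot
    rw [List.all_eq_true] at hroot
    have h1 := hroot x (List.mem_range.mpr hx19)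
    rw [List.all_eq_true] at h1
    have h2 := h1 y (List.mem_range.mpr hy19)
    rw [Bool.or_eq_true, Bool.or_eq_true, Bool.or_eq_true, Bool.or_eq_true] at h2
    rcases h2 with (((h2 | h2) | h2) | h2) | h2
    · unfold rootCell at h2
      rw [Bool.or_eq_true] at h2
      rcases h2 with h2 | h2
      · rw [Bool.and_eq_true] at h2
        have e1 := Nat.eq_of_beq_eq_true h2.1
        have e2 := Nat.eq_of_beq_eq_true h2.2
        subst e1 e2
        exact hcO rfl
      · rw [List.any_eq_true] at h2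
        obtain ⟨p, hp, h3⟩ := h2
        rw [List.any_eq_true] at h3
        obtain ⟨N, hN, h4⟩ := h3
        have h5 := hcon (p, N) (by
          rw [mem_product, List.mem_toFinset, List.mem_toFinset]
          exact ⟨hp, hN⟩)
        have h6 := memB_of_mem _ _ h5
        simp only at h6
        rw [h6] at h4
        exact Bool.noConfusion h4
    all_goals
      rw [Bool.and_eq_true] at h2
      have e1 := Nat.eq_of_beq_eq_true h2.1
      have e2 := Nat.eq_of_beq_eq_true h2.2
      subst e1 e2
      apply hadj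
      unfold EdgeAdjacent O
      norm_num
  refine ⟨strat', ((syms.toFinset) ×ˢ L.toFinset).sup f + 1, wins_partial _ ?_⟩
  intro d hd hadj
  obtain ⟨q, hq, hdq⟩ := hcov d hd hadj
  have h1 := hf q hq {O} {d} (by simp) ?_ ?_
  · exact MW_mono (le_trans (Finset.le_sup hq) (Nat.le_succ _)) h1
  · intro x hx hxd
    rw [mem_singleton] at hxd
    subst hxd
    exact hdq hx
  · intro x hx hxd
    rw [mem_singleton] at hx hxd
    exact hd (hxd ▸ hx)

end Vale.Agent.H5.Snaky
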