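import Vale.Agent.H5.SnakyGame

namespace Vale.Agent.H5.Snaky

open Finset

/-- Breaker to move: if Maker owns `C` and Breaker owns nothing of `N` then Maker wins. -/
def PB (C N : Set Cell) : Prop :=
  ∃ k, ∀ M B : Finset Cell, (∀ x ∈ C, x ∈ M) → (∀ x ∈ N, x ∉ B) → (∀ x ∈ M, x ∉ B) →
    ∀ d, d ∉ M → d ∉ B → MW k M (insert d B)

/-- Maker to move: if Maker owns `C` and Breaker owns nothing of `N` then Maker wins. -/
def PM (C N : Set Cell) : Prop :=
  ∃ k, ∀ M B : Finset Cell, (∀ x ∈ C, x ∈ M) → (∀ x ∈ N, x ∉ B) → (∀ x ∈ M, x ∉ B) →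
    MW k M B

lemma PB_base (C N : Set Cell) (A : Finset Cell) (hA : IsCopy A) (hAC : ∀ x ∈ A, x ∈ C) :
    PB C N := by
  refine ⟨0, ?_⟩
  intro M B hC _ _ d _ _
  exact ⟨A, hA, fun x hx => hC x (hAC x hx)⟩

lemma PM_of_PB (C N : Set Cell) (m : Cell) (h : PB C N) :
    PM {x | x ∈ C ∧ x ≠ m} {x | x ∈ N ∨ x = m} := by
  classical
  obtain ⟨k, h⟩ := h
  refine ⟨k + 1, ?_⟩
  intro M B hC hN hMB
  have hmB : m ∉ B := hN m (Or.inr rfl)
  by_cases hm : m ∈ M
  · obtain ⟨c, hcM, hcB⟩ := exists_free M B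
    right
    refine ⟨c, hcM, hcB, ?_⟩
    intro d hd hd'
    apply h (insert c M) B
    · intro x hx
      by_cases hxm : x = m
      · subst hxm; exact mem_insert_of_mem hm
      · exact mem_insert_of_mem (hC x ⟨hx, hxm⟩)
    · intro x hx; exact hN x (Or.inl hx)
    · intro x hx
      rcases mem_insert.mp hx with h1 | h1
      · subst h1; exact hcB
      · exact hMB x h1
    · exact hd
    · exact hd'
  · right
    refine ⟨m, hm, hmB, ?_⟩
    intro d hd hd'
    apply h (insert m M) B
    · intro x hx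
      by_cases hxm : x = m
      · subst hxm; exact mem_insert_self _ _
      · exact mem_insert_of_mem (hC x ⟨hx, hxm⟩)
    · intro x hx; exact hN x (Or.inl hx)
    · intro x hx
      rcases mem_insert.mp hx with h1 | h1
      · subst h1; exact hmB
      · exact hMB x h1
    · exact hd
    · exact hd'

/-- weakening: cells of `N` that Maker owns anyway do not matter -/
lemma PM_weaken {C N C' N' : Set Cell} (h : PM C N) (hC : ∀ x ∈ C, x ∈ C')
    (hN : ∀ x ∈ N, x ∈ N' ∨ x ∈ C') : PM C' N' := by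
  obtain ⟨k, h⟩ := h
  refine ⟨k, ?_⟩
  intro M B hC' hN' hMB
  apply h M B (fun x hx => hC' x (hC x hx)) _ hMB
  intro x hx
  rcases hN x hx with h1 | h1
  · exact hN' x h1
  · exact hMB x (hC' x h1)

/-- Combination: finitely many Maker-to-move patterns whose zones have no common free cell. -/
lemma PB_of_PM {ι : Type*} (s : Finset ι) (Ci Ni : ι → Set Cell) (C N : Set Cell)
    (hPM : ∀ i ∈ s, PM (Ci i) (Ni i)) (hC : ∀ i ∈ s, ∀ x ∈ Ci i, x ∈ C)
    (hN : ∀ i ∈ s, ∀ x ∈ Ni i, x ∈ N ∨ x ∈ C)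
    (hX : ∀ x, (∀ i ∈ s, x ∈ Ni i) → x ∈ C) : PB C N := by
  classical
  have hk : ∃ k, ∀ i ∈ s, ∀ M B : Finset Cell, (∀ x ∈ Ci i, x ∈ M) → (∀ x ∈ Ni i, x ∉ B) →
      (∀ x ∈ M, x ∉ B) → MW k M B := by
    choose! f hf using hPM
    refine ⟨s.sup f, ?_⟩
    intro i hi M B h1 h2 h3
    exact MW_mono (Finset.le_sup hi) (hf i hi M B h1 h2 h3)
  obtain ⟨k, hk⟩ := hk
  refine ⟨k, ?_⟩
  intro M B hCM hNB hMB d hdM hdB
  have : ∃ i ∈ s, d ∉ Ni i := by
    by_contra hcon
    push Not at hcon
    exact hdM (hCM d (hX d hcon))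
  obtain ⟨i, hi, hdi⟩ := this
  apply hk i hi
  · intro x hx; exact hCM x (hC i hi x hx)
  · intro x hx hx'
    rcases mem_insert.mp hx' with h1 | h1
    · subst h1; exact hdi hx
    · rcases hN i hi x hx with h2 | h2
      · exact hNB x h2 h1
      · exact hMB x (hCM x h2) h1
  · intro x hx hx'
    rcases mem_insert.mp hx' with h1 | h1
    · subst h1; exact hdM hx
    · exact hMB x hx h1

/-! ### symmetries -/

/-- `g` is a bijection of the grid mapping copies to copies -/
def IsSym (g : Equiv.Perm Cell) : Prop := ∀ A, IsCopy A → IsCopy (A.image g)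

lemma MW_image (g : Equiv.Perm Cell) (hg : IsSym g) :
    ∀ (k : ℕ) (M B : Finset Cell), MW k M B → MW k (M.image g) (B.image g) := by
  intro k
  induction k with
  | zero =>
    rintro M B ⟨A, hA, hAM⟩
    exact ⟨A.image g, hg A hA, image_subset_image hAM⟩
  | succ k ih =>
    intro M B h
    rcases h with ⟨A, hA, hAM⟩ | ⟨c, hc, hc', h⟩
    · exact Or.inl ⟨A.image g, hg A hA, image_subset_image hAM⟩
    · right
      refine ⟨g c, ?_, ?_, ?_⟩
      · rw [mem_image]; rintro ⟨x, hx, hxc⟩
        exact hc (g.injective hxc ▸ hx)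
      · rw [mem_image]; rintro ⟨x, hx, hxc⟩
        exact hc' (g.injective hxc ▸ hx)
      · intro d hd hd'
        have h1 : g.symm d ∉ insert c M := by
          intro hcon
          apply hd
          rw [← image_insert, mem_image]
          exact ⟨_, hcon, by simp⟩
        have h2 : g.symm d ∉ B := by
          intro hcon
          apply hd'
          rw [mem_image]
          exact ⟨_, hcon, by simp⟩
        have := ih _ _ (h _ h1 h2)
        rw [image_insert, image_insert] at this
        simpa using this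

lemma PM_image (g : Equiv.Perm Cell) (hg : IsSym g) (C N : Set Cell)
    (h : PM C N) : PM {x | g.symm x ∈ C} {x | g.symm x ∈ N} := by
  obtain ⟨k, h⟩ := h
  refine ⟨k, ?_⟩
  intro M B hC hN hMB
  have key := h (M.image g.symm) (B.image g.symm) ?_ ?_ ?_
  · have := MW_image g hg k _ _ key
    rw [image_image, image_image] at this
    simpa using this
  · intro x hx
    rw [mem_image]
    exact ⟨g x, hC (g x) (by simpa using hx), by simp⟩
  · intro x hx hx'
    rw [mem_image] at hx'
    obtain ⟨y, hy, rfl⟩ := hx'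
    exact hN y hx hy
  · intro x hx hx'
    rw [mem_image] at hx hx'
    obtain ⟨y, hy, rfl⟩ := hx
    obtain ⟨z, hz, hzy⟩ := hx'
    have := g.symm.injective hzy
    subst this
    exact hMB z hy hz

end Vale.Agent.H5.Snaky
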