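import Vale.Agent.H5.SnakyCheck

namespace Vale.Agent.H5.Snaky

open Finset

lemma act_add (a b : ℤ) (s : Bool) (c d : Cell) : act a b s (c + d) = act a b s c + act a b s d := by
  unfold act
  cases s
  · simp [mul_add]
  · simp [mul_add]

lemma act_act (a b a' b' : ℤ) (s s' : Bool) (c : Cell) :
    act a b s (act a' b' s' c) =
      act (if s then a * b' else a * a') (if s then b * a' else b * b') (xor s s') c := by
  unfold act
  cases s <;> cases s' <;> simp [mul_assoc]

/-- centre of the coding window -/
def O : Cell := (9, 9)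

/-- the point symmetry `c ↦ O + act a b s (c - O)` -/
def symFun (a b : ℤ) (s : Bool) (c : Cell) : Cell := O + act a b s (c - O)

def invA (a b : ℤ) (s : Bool) : ℤ := if s then b else a
def invB (a b : ℤ) (s : Bool) : ℤ := if s then a else b

lemma symFun_inv (a b : ℤ) (s : Bool) (ha : a = 1 ∨ a = -1) (hb : b = 1 ∨ b = -1) (c : Cell) :
    symFun (invA a b s) (invB a b s) s (symFun a b s c) = c := by
  unfold symFun
  rw [add_sub_cancel_left, act_act]
  have : act (if s then invA a b s * b else invA a b s * a)
      (if s then invB a b s * a else invB a b s * b) (xor s s) (c - O) = c - O := by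
    rcases ha with rfl | rfl <;> rcases hb with rfl | rfl <;> cases s <;>
      simp [act, invA, invB] <;> rfl
  rw [this]
  abel

lemma symFun_inv' (a b : ℤ) (s : Bool) (ha : a = 1 ∨ a = -1) (hb : b = 1 ∨ b = -1) (c : Cell) :
    symFun a b s (symFun (invA a b s) (invB a b s) s c) = c := by
  unfold symFun
  rw [add_sub_cancel_left, act_act]
  have : act (if s then a * invB a b s else a * invA a b s)
      (if s then b * invA a b s else b * invB a b s) (xor s s) (c - O) = c - O := by
    rcases ha with rfl | rfl <;> rcases hb with rfl | rfl <;> cases s <;>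
      simp [act, invA, invB] <;> rfl
  rw [this]
  abel

def symEquiv (a b : ℤ) (s : Bool) (ha : a = 1 ∨ a = -1) (hb : b = 1 ∨ b = -1) :
    Equiv.Perm Cell where
  toFun := symFun a b s
  invFun := symFun (invA a b s) (invB a b s) s
  left_inv := symFun_inv a b s ha hb
  right_inv := symFun_inv' a b s ha hb

lemma symEquiv_isSym (a b : ℤ) (s : Bool) (ha : a = 1 ∨ a = -1) (hb : b = 1 ∨ b = -1) :
    IsSym (symEquiv a b s ha hb) := by
  rintro A ⟨a', b', s', t, ha', hb', rfl⟩
  refine ⟨if s then a * b' else a * a', if s then b * a' else b * b', xor s s',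
    symFun a b s t, ?_, ?_, ?_⟩
  · rcases ha with rfl | rfl <;> rcases hb' with rfl | rfl <;> rcases ha' with rfl | rfl <;>
      cases s <;> simp
  · rcases hb with rfl | rfl <;> rcases hb' with rfl | rfl <;> rcases ha' with rfl | rfl <;>
      cases s <;> simp
  · rw [image_image]
    apply image_congr
    intro c _
    simp only [Function.comp]
    change symFun a b s (t + act a' b' s' c) = _
    unfold symFun
    rw [← act_act, add_sub_right_comm, act_add]
    abel

/-- membership in `cellsOf`, decidable version -/
def memB (N : ℕ) (c : Cell) : Bool :=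
  decide (0 ≤ c.1) && decide (0 ≤ c.2) && decide (c.2 < 19) &&
    N.testBit (c.1.toNat * 19 + c.2.toNat)

lemma memB_of_mem (N : ℕ) (c : Cell) (h : c ∈ cellsOf N) : memB N c = true := by
  obtain ⟨x, y, hy, rfl, ht⟩ := h
  have hy' : y < 19 := hy
  unfold memB
  simp only [Int.toNat_natCast, Bool.and_eq_true, decide_eq_true_eq]
  refine ⟨⟨⟨by positivity, by positivity⟩, by exact_mod_cast hy'⟩, ht⟩

/-- the eight symmetries -/
def syms : List (ℤ × ℤ × Bool) :=
  [(1, 1, false), (1, -1, false), (-1, 1, false), (-1, -1, false),
   (1, 1, true), (1, -1, true), (-1, 1, true), (-1, -1, true)]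

lemma syms_spec (p : ℤ × ℤ × Bool) (hp : p ∈ syms) :
    (p.1 = 1 ∨ p.1 = -1) ∧ (p.2.1 = 1 ∨ p.2.1 = -1) := by
  revert p
  decide

/-- the finite check at the root: every cell `(x, y) ≠ O` of the window is missed by the image of
some zone of the list -/
def rootCell (L : List ℕ) (x y : ℕ) : Bool :=
  (Nat.beq x 9 && Nat.beq y 9) ||
  syms.any (fun p => L.any (fun N =>
    ! memB N (symFun (invA p.1 p.2.1 p.2.2) (invB p.1 p.2.1 p.2.2) p.2.2 ((x : ℤ), (y : ℤ)))))

def rootCheck (L : List ℕ) : Bool :=
  (List.range 19).all (fun x => (List.range 19).all (fun y => rootCell L x y))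

theorem final (L : List ℕ) (hL : ∀ N ∈ L, PM {O} (cellsOf N) ∧ N < 2 ^ 361) (hne : L ≠ [])
    (hroot : rootCheck L = true) : ∃ (σ : Strategy) (K : ℕ), WinsWithin σ K := by
  classical
  have hPB : PB {O} Set.univ := by
    refine PB_of_PM ((syms.toFinset) ×ˢ L.toFinset)
      (fun _ => ({O} : Set Cell))
      (fun q => {c | symFun (invA q.1.1 q.1.2.1 q.1.2.2) (invB q.1.1 q.1.2.1 q.1.2.2) q.1.2.2 c ∈
        cellsOf q.2}) {O} Set.univ ?_ ?_ ?_ ?_
    · rintro ⟨p, N⟩ hq
      rw [mem_product, List.mem_toFinset, List.mem_toFinset] at hq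
      obtain ⟨hp, hN⟩ := hq
      simp only at hp hN
      obtain ⟨h1, h2⟩ := syms_spec p hp
      have := PM_image (symEquiv p.1 p.2.1 p.2.2 h1 h2)
        (symEquiv_isSym p.1 p.2.1 p.2.2 h1 h2) _ _ (hL N hN).1
      refine PM_weaken this ?_ ?_
      · intro x hx
        have hx' : (symEquiv p.1 p.2.1 p.2.2 h1 h2).symm x = O := hx
        rw [Equiv.symm_apply_eq] at hx'
        have : (symEquiv p.1 p.2.1 p.2.2 h1 h2) O = O := by
          change symFun p.1 p.2.1 p.2.2 O = O
          unfold symFun act
          simp
        rw [this] at hx'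
        exact hx'
      · intro x hx
        exact Or.inl hx
    · intro _ _ x hx; exact hx
    · intro _ _ x _; exact Or.inl (Set.mem_univ x)
    · intro c hc
      obtain ⟨N0, hN0⟩ := List.exists_mem_of_ne_nil L hne
      have h0 := hc (((1 : ℤ), (1 : ℤ), false), N0) (by
        rw [mem_product, List.mem_toFinset, List.mem_toFinset]
        exact ⟨List.mem_cons_self, hN0⟩)
      have h0' : c ∈ cellsOf N0 := by
        have e : symFun (invA 1 1 false) (invB 1 1 false) false c = c := by
          have e1 : act 1 1 false (c - O) = c - O := by simp [act]; rfl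
          unfold symFun invA invB
          simp only [Bool.false_eq_true, if_false]
          rw [e1]
          abel
        have h00 : symFun (invA 1 1 false) (invB 1 1 false) false c ∈ cellsOf N0 := h0
        rw [e] at h00
        exact h00
      obtain ⟨x, y, hy, rfl, ht⟩ := h0'
      have hy19 : y < 19 := hy
      have hx19 : x < 19 := by
        by_contra hx
        push Not at hx
        have hlt : N0 < 2 ^ (x * W + y) := by
          refine lt_of_lt_of_le (hL N0 hN0).2 ?_
          apply Nat.pow_le_pow_right (by norm_num)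
          have : W = 19 := rfl
          rw [this]
          omega
        rw [Nat.testBit_lt_two_pow hlt] at ht
        exact Bool.noConfusion ht
      unfold rootCheck at hroot
      rw [List.all_eq_true] at hroot
      have h1 := hroot x (List.mem_range.mpr hx19)
      rw [List.all_eq_true] at h1
      have h2 := h1 y (List.mem_range.mpr hy19)
      unfold rootCell at h2
      rw [Bool.or_eq_true] at h2
      rcases h2 with h2 | h2
      · rw [Bool.and_eq_true] at h2
        have e1 := Nat.eq_of_beq_eq_true h2.1
        have e2 := Nat.eq_of_beq_eq_true h2.2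
        subst e1 e2
        rfl
      · exfalso
        rw [List.any_eq_true] at h2
        obtain ⟨p, hp, h3⟩ := h2
        rw [List.any_eq_true] at h3
        obtain ⟨N, hN, h4⟩ := h3
        have h5 := hc (p, N) (by
          rw [mem_product, List.mem_toFinset, List.mem_toFinset]
          exact ⟨hp, hN⟩)
        have h6 := memB_of_mem _ _ h5
        simp only at h6
        rw [h6] at h4
        exact Bool.noConfusion h4
  obtain ⟨k, hk⟩ := hPB
  refine ⟨strat, k, wins_of_MW k ?_⟩
  right
  refine ⟨O, by simp, by simp, ?_⟩
  intro d hd _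
  have := hk {O} ∅ (by simp) (by simp) (by simp) d (by simpa using hd) (by simp)
  simpa using this

/-- Maker-to-move pattern from a checked table -/
lemma PM_of_valid (t : T) (j m N : ℕ) (hv : Valid t j)
    (hC : sub (patC t j) ((1 <<< 180) ||| (1 <<< m)) = true)
    (hN : Nat.beq (patN t j ||| (1 <<< m)) N = true) : PM {O} (cellsOf N) := by
  have h := PM_of_PB _ _ (cellAt m) hv
  refine PM_weaken h ?_ ?_
  · rintro x ⟨hx, hxm⟩
    have := sub_cells hC x hx
    rw [cellsOf_or, cellsOf_bit, cellsOf_bit] at this
    rcases this with h1 | h1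
    · rw [h1]; rfl
    · exact absurd h1 hxm
  · intro x hx
    left
    rw [← Nat.eq_of_beq_eq_true hN, cellsOf_or, cellsOf_bit]
    exact hx

end Vale.Agent.H5.Snaky
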